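import Vale.Agent.P207.H824.Korn

/-!
# P207 / H824: the slice on finite dimensional spaces of eigen tensors

`E1 C lam`, `E2 C lam`: vector families and symmetric tensor families with Casimir eigenvalue
`lam`.  For every symmetric idempotent `P` on the symmetric tensors (for instance a parallel
projection on a type) and every `k` there is an eigen 1-form `W` with `div (P (k - L_W g)) = 0`.
-/

set_option linter.unusedSectionVars false

noncomputable section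

namespace Vale.Agent.P207.H824

open Finset H442 H442.FrCalc H571

variable {n : ℕ} {A : Type*} [CommRing A] [Algebra ℝ A] {C : FrCalc n A} {I : A →ₗ[ℝ] ℝ}

/-! ### the abstract slice -/

section Gen

variable {S1 : Submodule ℝ (Fin n → A)} {S2 : Submodule ℝ (Fin n → Fin n → A)}

/-- an idempotent symmetric operator on `S2` -/
structure SymProj (I : A →ₗ[ℝ] ℝ) (S2 : Submodule ℝ (Fin n → Fin n → A))
    (P : (Fin n → Fin n → A) →ₗ[ℝ] (Fin n → Fin n → A)) : Prop where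
  mem : ∀ k ∈ S2, P k ∈ S2
  symm : ∀ k ∈ S2, ∀ h ∈ S2, B2 I (P k) h = B2 I k (P h)
  idem : ∀ k ∈ S2, P (P k) = P k

theorem SymProj.id : SymProj I S2 LinearMap.id := ⟨fun _ h => h, fun _ _ _ _ => rfl, fun _ _ => rfl⟩

variable {P : (Fin n → Fin n → A) →ₗ[ℝ] (Fin n → Fin n → A)}

theorem SymProj.pyth (hP : SymProj I S2 P) {k : Fin n → Fin n → A} (hk : k ∈ S2) :
    B2 I k k = B2 I (P k) (P k) + B2 I (k - P k) (k - P k) := by
  have h1 : B2 I (P k) (k - P k) = 0 := by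
    rw [hP.symm k hk _ (S2.sub_mem hk (hP.mem k hk)), map_sub, hP.idem k hk, sub_self, map_zero]
  have h2 : B2 I k k = B2 I (P k + (k - P k)) (P k + (k - P k)) := by
    rw [add_sub_cancel]
  rw [h2, map_add (B2 I) (P k) (k - P k), LinearMap.add_apply, map_add (B2 I (P k)),
    map_add (B2 I (k - P k)), B2_symm (k - P k) (P k), h1]
  ring

theorem SymProj.le (hP : SymProj I S2 P) (hpos : ∀ f : A, 0 ≤ I (f * f))
    {k : Fin n → Fin n → A} (hk : k ∈ S2) : B2 I (P k) (P k) ≤ B2 I k k := by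
  rw [hP.pyth hk]
  linarith [B2_nonneg hpos (k - P k)]

/-- **the slice**, abstract form -/
theorem slice_gen [FiniteDimensional ℝ S1] (hI : C.IsInt I) (hpos : ∀ f : A, 0 ≤ I (f * f))
    (hdef : ∀ f : A, I (f * f) = 0 → f = 0)
    (hL : ∀ W ∈ S1, Lg C W ∈ S2) (hd : ∀ k ∈ S2, dv2 C k ∈ S1)
    (hsym : ∀ k ∈ S2, ∀ i j, k i j = k j i) (hP : SymProj I S2 P)
    {k : Fin n → Fin n → A} (hk : k ∈ S2) :
    ∃ W ∈ S1, dv2 C (P (k - Lg C W)) = 0 ∧
      B2 I (P (k - Lg C W)) (P (k - Lg C W)) + B2 I (P (Lg C W)) (P (Lg C W)) =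
        B2 I (P k) (P k) := by
  obtain ⟨w, hw⟩ := least_squares (E := S1) (b := B2 I) B2_symm (B2_nonneg hpos)
    (P.comp ((LgL C).comp S1.subtype)) (P k)
  have hw' : ∀ v ∈ S1, B2 I (P (k - Lg C w)) (P (Lg C v)) = 0 := by
    intro v hv
    have h1 := hw ⟨v, hv⟩
    rw [map_sub]
    exact h1
  have hmem : k - Lg C w ∈ S2 := S2.sub_mem hk (hL _ w.2)
  have hmem2 : P (k - Lg C w) ∈ S2 := hP.mem _ hmem
  refine ⟨w, w.2, ?_, ?_⟩
  · refine eq_zero_of_B1 hpos hdef ?_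
    have h1 := hw' _ (hd _ hmem2)
    rw [← hP.symm _ hmem2 _ (hL _ (hd _ hmem2)), hP.idem _ hmem, B2_Lg hI (hsym _ hmem2)] at h1
    linarith
  · have h1 := hw' _ w.2
    have h2 : P k = P (k - Lg C w) + P (Lg C w) := by rw [← map_add, sub_add_cancel]
    rw [h2, map_add (B2 I), LinearMap.add_apply, map_add (B2 I (P (k - Lg C w))),
      map_add (B2 I (P (Lg C w))), B2_symm (P (Lg C w)) (P (k - Lg C w)), h1]
    ring

/-- **the slice** with bounds -/
theorem slice_bound [FiniteDimensional ℝ S1] (hI : C.IsInt I) (hpos : ∀ f : A, 0 ≤ I (f * f))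
    (hdef : ∀ f : A, I (f * f) = 0 → f = 0)
    (hL : ∀ W ∈ S1, Lg C W ∈ S2) (hd : ∀ k ∈ S2, dv2 C k ∈ S1)
    (hsym : ∀ k ∈ S2, ∀ i j, k i j = k j i) (hT : ∀ W ∈ S1, C.T1 W) (hP : SymProj I S2 P)
    {c₀ : ℝ} (hc₀ : 0 < c₀) (hE : ∀ i j, C.Ric i j = if i = j then -(c₀ • (1 : A)) else 0)
    {c : ℝ} (hc : 0 < c)
    (hco : ∀ W ∈ S1, c * B2 I (Lg C W) (Lg C W) ≤ B2 I (P (Lg C W)) (P (Lg C W)))
    {k : Fin n → Fin n → A} (hk : k ∈ S2) :
    ∃ W ∈ S1, dv2 C (P (k - Lg C W)) = 0 ∧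
      B2 I (Lg C W) (Lg C W) ≤ 1 / c * B2 I k k ∧
      B1 I W W ≤ 1 / (2 * c₀ * c) * B2 I k k ∧
      B2 I (k - Lg C W) (k - Lg C W) ≤ (2 + 2 / c) * B2 I k k ∧
      B2 I k k - 2 / c₀ * B1 I (dv2 C k) (dv2 C k) ≤ B2 I (k - Lg C W) (k - Lg C W) := by
  obtain ⟨W, hW, h1, h2⟩ := slice_gen hI hpos hdef hL hd hsym hP hk
  have h3 := B2_nonneg hpos (P (k - Lg C W))
  have h4 := hP.le hpos hk
  have h5 := hco W hW
  have h6 := korn hI hpos hE (hT W hW)
  have h7 := B2_nonneg hpos (nab C W)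
  have h8 : B2 I (Lg C W) (Lg C W) ≤ 1 / c * B2 I k k := by
    have h9 : c * B2 I (Lg C W) (Lg C W) ≤ B2 I k k := by linarith
    rw [one_div, ← div_eq_inv_mul, le_div_iff₀ hc]
    linarith
  refine ⟨W, hW, h1, h8, ?_, ?_, dist_Lg hI hpos hc₀ hE (hsym k hk) (hT W hW)⟩
  · have h9 : 2 * c₀ * B1 I W W ≤ 1 / c * B2 I k k := by linarith
    have h10 : 1 / (2 * c₀ * c) * B2 I k k = (1 / c * B2 I k k) / (2 * c₀) := by
      field_simp
    rw [h10, le_div_iff₀ (by positivity)]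
    linarith
  · have h9 := B2_nonneg hpos (k + Lg C W)
    have h10 : B2 I (k - Lg C W) (k - Lg C W) + B2 I (k + Lg C W) (k + Lg C W) =
        2 * B2 I k k + 2 * B2 I (Lg C W) (Lg C W) := by
      simp only [map_add, map_sub, LinearMap.add_apply, LinearMap.sub_apply]
      ring
    have h11 : (2 + 2 / c) * B2 I k k = 2 * B2 I k k + 2 * (1 / c * B2 I k k) := by ring
    rw [h11]
    linarith

end Gen

/-! ### eigen tensors of the Casimir operator -/

variable (C) in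
/-- vector families with Casimir eigenvalue `lam` -/
def E1 (lam : ℝ) : Submodule ℝ (Fin n → A) where
  carrier := {W | C.T1 W ∧ ∀ i, C.cas (W i) = lam • W i}
  add_mem' := by
    rintro u w ⟨hu, hu'⟩ ⟨hw, hw'⟩
    refine ⟨hu.add hw, fun i => ?_⟩
    rw [Pi.add_apply, cas_add, hu', hw', smul_add]
  zero_mem' := by
    refine ⟨fun a b i => ?_, fun i => ?_⟩
    · simp [ac]
    · rw [Pi.zero_apply, cas_zero, smul_zero]
  smul_mem' := by
    rintro c u ⟨hu, hu'⟩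
    refine ⟨hu.smul c, fun i => ?_⟩
    rw [Pi.smul_apply, cas_smul, hu', smul_comm]

variable (C) in
/-- symmetric tensor families with Casimir eigenvalue `lam` -/
def E2 (lam : ℝ) : Submodule ℝ (Fin n → Fin n → A) where
  carrier := {k | C.T2 k ∧ (∀ i j, k i j = k j i) ∧ ∀ i j, C.cas (k i j) = lam • k i j}
  add_mem' := by
    rintro u w ⟨hu, hu', hu''⟩ ⟨hw, hw', hw''⟩
    refine ⟨hu.add hw, fun i j => ?_, fun i j => ?_⟩
    · simp only [Pi.add_apply]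
      rw [hu', hw']
    · simp only [Pi.add_apply]
      rw [cas_add, hu'', hw'', smul_add]
  zero_mem' := by
    refine ⟨fun a b i j => ?_, fun i j => rfl, fun i j => ?_⟩
    · simp [ac]
    · simp only [Pi.zero_apply]
      rw [cas_zero, smul_zero]
  smul_mem' := by
    rintro c u ⟨hu, hu', hu''⟩
    refine ⟨hu.smul c, fun i j => ?_, fun i j => ?_⟩
    · simp only [Pi.smul_apply]
      rw [hu']
    · simp only [Pi.smul_apply]
      rw [cas_smul, hu'', smul_comm]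

theorem mem_E1 {lam : ℝ} {W : Fin n → A} :
    W ∈ E1 C lam ↔ C.T1 W ∧ ∀ i, C.cas (W i) = lam • W i := Iff.rfl

theorem mem_E2 {lam : ℝ} {k : Fin n → Fin n → A} :
    k ∈ E2 C lam ↔ C.T2 k ∧ (∀ i j, k i j = k j i) ∧ ∀ i j, C.cas (k i j) = lam • k i j := Iff.rfl

theorem Lg_mem (hPar : C.Par) {lam : ℝ} {W : Fin n → A} (hW : W ∈ E1 C lam) :
    Lg C W ∈ E2 C lam := by
  refine ⟨T2_Lg hW.1, Lg_symm W, fun i j => ?_⟩
  unfold Lg
  rw [cas_add, ← H_cas hPar, ← H_cas hPar, hW.2, hW.2, Derivation.map_smul, Derivation.map_smul,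
    smul_add]

theorem dv2_mem (hPar : C.Par) {lam : ℝ} {k : Fin n → Fin n → A} (hk : k ∈ E2 C lam) :
    dv2 C k ∈ E1 C lam := by
  refine ⟨(hk.1.nabla).tr12, fun j => ?_⟩
  unfold dv2
  rw [cas_sum, Finset.smul_sum]
  refine Finset.sum_congr rfl fun i _ => ?_
  rw [← H_cas hPar, hk.2.2, Derivation.map_smul]

/-- **the slice on the eigen tensors** -/
theorem slice {lam : ℝ} [FiniteDimensional ℝ (E1 C lam)] (hPar : C.Par) (hI : C.IsInt I)
    (hpos : ∀ f : A, 0 ≤ I (f * f)) (hdef : ∀ f : A, I (f * f) = 0 → f = 0)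
    {P : (Fin n → Fin n → A) →ₗ[ℝ] (Fin n → Fin n → A)} (hP : SymProj I (E2 C lam) P)
    {c₀ : ℝ} (hc₀ : 0 < c₀) (hE : ∀ i j, C.Ric i j = if i = j then -(c₀ • (1 : A)) else 0)
    {c : ℝ} (hc : 0 < c)
    (hco : ∀ W, C.T1 W → c * B2 I (Lg C W) (Lg C W) ≤ B2 I (P (Lg C W)) (P (Lg C W)))
    {k : Fin n → Fin n → A} (hk : k ∈ E2 C lam) :
    ∃ W ∈ E1 C lam, dv2 C (P (k - Lg C W)) = 0 ∧
      B2 I (Lg C W) (Lg C W) ≤ 1 / c * B2 I k k ∧
      B1 I W W ≤ 1 / (2 * c₀ * c) * B2 I k k ∧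
      B2 I (k - Lg C W) (k - Lg C W) ≤ (2 + 2 / c) * B2 I k k ∧
      B2 I k k - 2 / c₀ * B1 I (dv2 C k) (dv2 C k) ≤ B2 I (k - Lg C W) (k - Lg C W) :=
  slice_bound (S1 := E1 C lam) (S2 := E2 C lam) hI hpos hdef (fun _ h => Lg_mem hPar h)
    (fun _ h => dv2_mem hPar h) (fun _ h => h.2.1) (fun _ h => h.1) hP hc₀ hE hc
    (fun W h => hco W h.1) hk

/-- `k - L_W g` is again an eigen tensor -/
theorem sub_Lg_mem (hPar : C.Par) {lam : ℝ} {k : Fin n → Fin n → A} (hk : k ∈ E2 C lam)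
    {W : Fin n → A} (hW : W ∈ E1 C lam) : k - Lg C W ∈ E2 C lam :=
  (E2 C lam).sub_mem hk (Lg_mem hPar hW)

/-- the integral of the trace is not changed -/
theorem I_tr_sub_Lg (hI : C.IsInt I) (k : Fin n → Fin n → A) (W : Fin n → A) :
    I (∑ i, (k - Lg C W) i i) = I (∑ i, k i i) := by
  simp only [Pi.sub_apply, Lg, Finset.sum_sub_distrib, Finset.sum_add_distrib, map_sub, map_add,
    map_sum, hI.hor, Finset.sum_const_zero, add_zero, sub_zero]

/-! ### orthogonality of the eigenspaces -/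

theorem B2_orth (hI : C.IsInt I) {lam mu : ℝ} (hne : lam ≠ mu) {k h : Fin n → Fin n → A}
    (hk : k ∈ E2 C lam) (hh : h ∈ E2 C mu) : B2 I k h = 0 := by
  rw [B2_apply]
  exact Finset.sum_eq_zero fun i _ => Finset.sum_eq_zero fun j _ =>
    hI.orth (hk.2.2 i j) (hh.2.2 i j) hne

theorem B1_orth (hI : C.IsInt I) {lam mu : ℝ} (hne : lam ≠ mu) {u w : Fin n → A}
    (hu : u ∈ E1 C lam) (hw : w ∈ E1 C mu) : B1 I u w = 0 := by
  rw [B1_apply]
  exact Finset.sum_eq_zero fun i _ => hI.orth (hu.2 i) (hw.2 i) hne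

end Vale.Agent.P207.H824
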