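import Vale.Agent.P207.H824.PosN

/-!
# P207 / H824: assembly of the coercivity, fields on one eigenspace
-/

set_option linter.unusedSectionVars false
set_option linter.unusedVariables false

noncomputable section

namespace Vale.Agent.P207.H824

open Finset H442 H442.FrCalc H571

variable {n : ℕ} {A : Type*} [CommRing A] [Algebra ℝ A] {C : FrCalc n A} {I : A →ₗ[ℝ] ℝ}

/-! ### the bilinear form -/

theorem Bf_smul_left (o : Fin n) (t : ℝ) (k k' : Fin n → Fin n → A) (y y' : Fin n → A) :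
    Bf C I o (t • k) (t • y) k' y' = t * Bf C I o k y k' y' := by
  have h1 : ∀ i, Zf C o (t • k) i = t • Zf C o k i := by
    intro i
    unfold Zf
    simp only [Pi.smul_apply, Derivation.map_smul, smul_sub]
    rw [smul_comm (1 / 2 : ℝ) t]
  unfold Bf
  simp only [h1, Pi.smul_apply, Derivation.map_smul, smul_mul_assoc, mul_smul_comm, map_smul,
    smul_eq_mul, ← Finset.mul_sum, ← Finset.smul_sum]
  ring

variable (C I) in
/-- the bilinear form of the second variation, on pairs -/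
def BfL (o : Fin n) : LinearMap.BilinForm ℝ ((Fin n → Fin n → A) × (Fin n → A)) :=
  LinearMap.mk₂ ℝ (fun x x' => Bf C I o x.1 x.2 x'.1 x'.2)
    (fun x x' x'' => Bf_add_left o x.1 x'.1 x''.1 x.2 x'.2 x''.2)
    (fun c x x' => Bf_smul_left o c x.1 x'.1 x.2 x'.2)
    (fun x x' x'' => Bf_add_right o x.1 x'.1 x''.1 x.2 x'.2 x''.2)
    (fun c x x' => by
      rw [Bf_symm, smul_eq_mul, Bf_symm o x.1 x'.1]
      exact Bf_smul_left o c x'.1 x.1 x'.2 x.2)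

theorem BfL_apply (o : Fin n) (x x' : (Fin n → Fin n → A) × (Fin n → A)) :
    BfL C I o x x' = Bf C I o x.1 x.2 x'.1 x'.2 := rfl

theorem Qf_split (o : Fin n) (k : Fin n → Fin n → A) (y : Fin n → A) :
    Qf C I o k y = BfL C I o (k, 0) (k, 0) + 2 * BfL C I o (k, 0) (0, y)
      + BfL C I o (0, y) (0, y) := by
  have h1 : ((k, y) : (Fin n → Fin n → A) × (Fin n → A)) = (k, 0) + (0, y) := by simp
  have h2 : Qf C I o k y = BfL C I o (k, y) (k, y) := Qf_eq o k y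
  have h3 : BfL C I o (0, y) (k, 0) = BfL C I o (k, 0) (0, y) := Bf_symm o _ _ _ _
  rw [h2, h1]
  simp only [map_add, LinearMap.add_apply]
  rw [h3]
  ring

/-! ### the spaces -/

variable (C) in
/-- the field `z H_i f`, `i ≠ o` -/
def hg (o : Fin n) (z : ℝ) (f : A) (i : Fin n) : A := if i = o then 0 else z • C.H i f

/-- the spaces of tensors, vector fields and test fields -/
structure Spc (C : FrCalc n A) (o : Fin n) (TT : Submodule ℝ (Fin n → Fin n → A))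
    (VV YY : Submodule ℝ (Fin n → A)) : Prop where
  T2 : ∀ k ∈ TT, C.T2 k
  symm : ∀ k ∈ TT, ∀ i j, k i j = k j i
  T1 : ∀ W ∈ VV, C.T1 W
  zero : ∀ y ∈ YY, y o = 0
  Lg : ∀ W ∈ VV, Lg C W ∈ TT
  dv : ∀ k ∈ TT, dv2 C k ∈ VV
  pn : ∀ W ∈ VV, pn o W ∈ YY
  gm : gm A ∈ TT
  hg : ∀ k ∈ TT, ∀ z : ℝ, hg C o z (k o o) ∈ YY

/-- the analytic facts -/
structure Ana (C : FrCalc n A) (I : A →ₗ[ℝ] ℝ) (h : ℕ → A → ℝ)
    (TT : Submodule ℝ (Fin n → Fin n → A)) (VV : Submodule ℝ (Fin n → A)) : Prop where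
  spec : ∀ k ∈ TT, ∀ ε > (0 : ℝ), ∃ (F : Finset ℝ) (kl : ℝ → Fin n → Fin n → A),
    (∀ l ∈ F, kl l ∈ TT ⊓ E2 C (-l)) ∧
    (∀ l ∈ F, ∀ i j, Orth C I (-l) ((k - ∑ l ∈ F, kl l) i j)) ∧
    B2 I (k - ∑ l ∈ F, kl l) (k - ∑ l ∈ F, kl l) ≤ ε
  fd1 : ∀ l, FiniteDimensional ℝ (VV ⊓ E1 C (-l) : Submodule ℝ (Fin n → A))
  fd2 : ∀ l, FiniteDimensional ℝ (TT ⊓ E2 C (-l) : Submodule ℝ (Fin n → Fin n → A))
  disc : ∀ L : ℝ, {l : ℝ | l < L ∧ ∃ k ∈ TT ⊓ E2 C (-l), k ≠ 0}.Finite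
  ell1 : ∀ s, ∃ K : ℝ, 0 ≤ K ∧ ∀ (F : Finset ℝ) (w : ℝ → Fin n → A),
    (∀ l ∈ F, w l ∈ VV ⊓ E1 C (-l)) → ∀ i,
      h s ((∑ l ∈ F, w l) i) ≤ K * Real.sqrt (∑ l ∈ F, (1 + l ^ 2) ^ s * B1 I (w l) (w l))
  ell2 : ∀ s, ∃ K : ℝ, 0 ≤ K ∧ ∀ (F : Finset ℝ) (k : ℝ → Fin n → Fin n → A),
    (∀ l ∈ F, k l ∈ TT ⊓ E2 C (-l)) → ∀ i j,
      h s ((∑ l ∈ F, k l) i j) ≤ K * Real.sqrt (∑ l ∈ F, (1 + l ^ 2) ^ s * B2 I (k l) (k l))

variable {o : Fin n} {TT : Submodule ℝ (Fin n → Fin n → A)} {VV YY : Submodule ℝ (Fin n → A)}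

variable (C YY) in
/-- test fields with eigenvalue `lam` -/
def EY (lam : ℝ) : Submodule ℝ (Fin n → A) where
  carrier := {y | y ∈ YY ∧ ∀ i, y i ∈ E0 C lam}
  add_mem' := fun {a b} ha hb => ⟨YY.add_mem ha.1 hb.1, fun i => (E0 C lam).add_mem (ha.2 i) (hb.2 i)⟩
  zero_mem' := ⟨YY.zero_mem, fun _ => (E0 C lam).zero_mem⟩
  smul_mem' := fun c {a} ha => ⟨YY.smul_mem c ha.1, fun i => (E0 C lam).smul_mem c (ha.2 i)⟩

theorem mem_EY {lam : ℝ} {y : Fin n → A} : y ∈ EY C YY lam ↔ y ∈ YY ∧ ∀ i, y i ∈ E0 C lam := Iff.rfl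

/-- `(k, y) ↦ (k + L_W g, y - W^⊥)` -/
theorem Qf_slice (hI : C.IsInt I) (S : Spc C o TT VV YY) {k : Fin n → Fin n → A} (hk : k ∈ TT)
    {W : Fin n → A} (hW : W ∈ VV) {y : Fin n → A} (hy : y ∈ YY) :
    Qf C I o k (y + pn o W) = Qf C I o (k - Lg C W) y := by
  have hk' : k - Lg C W ∈ TT := TT.sub_mem hk (S.Lg W hW)
  rw [← Qf_inv hI o (S.T2 _ hk') (S.symm _ hk') (S.zero y hy) (S.T1 W hW)]
  congr 1
  funext i j
  simp

/-- **compactness**: the fields for one low eigenvalue -/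
theorem low_field {h : ℕ → A → ℝ} {cn : A → ℝ} {s₀ : ℕ} (N : Nm C I h cn s₀)
    (hdef : ∀ f : A, I (f * f) = 0 → f = 0) (An : Ana C I h TT VV) (l : ℝ)
    (P : (Fin n → Fin n → A) →ₗ[ℝ] (Fin n → Fin n → A))
    (hlow : ∀ k ∈ TT ⊓ E2 C (-l), k ≠ 0 → dv2 C (P k) = 0 → I (∑ i, k i i) = 0 →
      ∃ y ∈ EY C YY (-l), 0 < Qf C I o k y) :
    ∃ c : ℝ, 0 < c ∧ ∃ K : ℝ, 0 ≤ K ∧ ∀ k ∈ TT ⊓ E2 C (-l), dv2 C (P k) = 0 →
      I (∑ i, k i i) = 0 →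
      ∃ y ∈ EY C YY (-l), cV cn y ≤ K * Real.sqrt (B2 I k k) ∧ c * B2 I k k ≤ Qf C I o k y := by
  set E : Submodule ℝ (Fin n → Fin n → A) :=
    { carrier := {k | k ∈ TT ⊓ E2 C (-l) ∧ dv2 C (P k) = 0 ∧ I (∑ i, k i i) = 0}
      add_mem' := by
        rintro a b ⟨ha, ha1, ha2⟩ ⟨hb, hb1, hb2⟩
        refine ⟨Submodule.add_mem _ ha hb, ?_, ?_⟩
        · rw [map_add, ← dvL_apply, map_add, dvL_apply, dvL_apply, ha1, hb1, add_zero]
        · simp only [Pi.add_apply, Finset.sum_add_distrib, map_add, ha2, hb2, add_zero]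
      zero_mem' := by
        refine ⟨Submodule.zero_mem _, ?_, ?_⟩
        · rw [map_zero, ← dvL_apply, map_zero]
        · simp
      smul_mem' := by
        rintro c a ⟨ha, ha1, ha2⟩
        refine ⟨Submodule.smul_mem _ c ha, ?_, ?_⟩
        · rw [map_smul, ← dvL_apply, map_smul, dvL_apply, ha1, smul_zero]
        · simp only [Pi.smul_apply, ← Finset.smul_sum, map_smul, ha2, smul_zero] } with hE
  have hle : E ≤ TT ⊓ E2 C (-l) := fun k hk => hk.1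
  have := An.fd2 l
  have : FiniteDimensional ℝ E := Submodule.finiteDimensional_of_le hle
  set iE : E →ₗ[ℝ] (Fin n → Fin n → A) × (Fin n → A) :=
    (LinearMap.inl ℝ (Fin n → Fin n → A) (Fin n → A)).comp E.subtype with hiE
  set iY : EY C YY (-l) →ₗ[ℝ] (Fin n → Fin n → A) × (Fin n → A) :=
    (LinearMap.inr ℝ (Fin n → Fin n → A) (Fin n → A)).comp (EY C YY (-l)).subtype with hiY
  have hq : ∀ (k : E) (y : EY C YY (-l)), Qf C I o (k : Fin n → Fin n → A) (y : Fin n → A) =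
      (BfL C I o).compl₁₂ iE iE k k + ((2 : ℝ) • (BfL C I o).compl₁₂ iE iY) k y
        + BfL C I o (iY y) (iY y) := by
    intro k y
    exact Qf_split o _ _
  have hpos := N.pos
  have hN : ∀ k : E, k ≠ 0 → 0 < (B2 I).compl₁₂ E.subtype E.subtype k k := by
    intro k hk
    have h1 : 0 ≤ B2 I (k : Fin n → Fin n → A) k := B2_nonneg hpos _
    rcases h1.lt_or_eq with h2 | h2
    · exact h2
    · exfalso
      apply hk
      apply Subtype.ext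
      funext i j
      rw [B2_apply] at h2
      have h3 := (Finset.sum_eq_zero_iff_of_nonneg (fun i _ => Finset.sum_nonneg fun j _ =>
        hpos ((k : Fin n → Fin n → A) i j))).1 h2.symm i (Finset.mem_univ i)
      have h4 := (Finset.sum_eq_zero_iff_of_nonneg (fun j _ =>
        hpos ((k : Fin n → Fin n → A) i j))).1 h3 j (Finset.mem_univ j)
      exact hdef _ h4
  obtain ⟨c, hc, K, hK, h1⟩ := low_compact (E := E) (Y := EY C YY (-l))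
    ((BfL C I o).compl₁₂ iE iE) ((2 : ℝ) • (BfL C I o).compl₁₂ iE iY)
    (fun y => BfL C I o (iY y) (iY y))
    (fun t y => by
      rw [map_smul iY, map_smul (BfL C I o), LinearMap.smul_apply, map_smul, smul_eq_mul,
        smul_eq_mul]
      ring)
    (fun y => cV cn (y : Fin n → A))
    (fun t y => by
      change cV cn (t • (y : Fin n → A)) = |t| * cV cn (y : Fin n → A)
      simp only [cV, Pi.smul_apply, N.cn_smul, Finset.mul_sum])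
    ((B2 I).compl₁₂ E.subtype E.subtype) hN
    (fun k hk => by
      obtain ⟨y, hy, hy'⟩ := hlow k k.2.1 (fun h0 => hk (Subtype.ext h0)) k.2.2.1 k.2.2.2
      refine ⟨⟨y, hy⟩, ?_⟩
      rw [← hq k ⟨y, hy⟩]
      exact hy')
  refine ⟨c, hc, K, hK, fun k hk hk1 hk2 => ?_⟩
  obtain ⟨y, hy1, hy2⟩ := h1 ⟨k, hk, hk1, hk2⟩
  refine ⟨y, y.2, hy1, ?_⟩
  rw [← hq ⟨k, hk, hk1, hk2⟩ y] at hy2
  exact hy2

/-! ### one eigenvalue -/

/-- high eigenvalues -/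
theorem step_high (hPar : C.Par) (hI : C.IsInt I) (hpos : ∀ f : A, 0 ≤ I (f * f))
    (hdef : ∀ f : A, I (f * f) = 0 → f = 0) {h : ℕ → A → ℝ} (S : Spc C o TT VV YY)
    (An : Ana C I h TT VV) {c₀ : ℝ} (hc₀ : 0 < c₀)
    (hE : ∀ i j, C.Ric i j = if i = j then -(c₀ • (1 : A)) else 0) {c z l : ℝ} (hc : 0 < c)
    (hhigh : ∀ k ∈ TT ⊓ E2 C (-l), dv2 C k = 0 →
      c * B2 I k k ≤ Qf C I o k (hg C o (-z / l) (k o o)))
    {k : Fin n → Fin n → A} (hk : k ∈ TT ⊓ E2 C (-l)) :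
    ∃ W ∈ VV ⊓ E1 C (-l), B1 I W W ≤ 1 / (2 * c₀) * B2 I k k ∧
      B2 I (k - Lg C W) (k - Lg C W) ≤ 4 * B2 I k k ∧
      B2 I k k - 2 / c₀ * B1 I (dv2 C k) (dv2 C k) ≤ B2 I (k - Lg C W) (k - Lg C W) ∧
      c * B2 I (k - Lg C W) (k - Lg C W) ≤
        Qf C I o k (hg C o (-z / l) ((k - Lg C W) o o) + pn o W) := by
  have := An.fd1 l
  obtain ⟨W, hW, h1, -, h3, h4, h5⟩ := slice_bound (S1 := VV ⊓ E1 C (-l)) (S2 := TT ⊓ E2 C (-l))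
    hI hpos hdef (fun W hW => ⟨S.Lg W hW.1, Lg_mem hPar hW.2⟩)
    (fun k hk => ⟨S.dv k hk.1, dv2_mem hPar hk.2⟩) (fun k hk => hk.2.2.1) (fun W hW => hW.2.1)
    (SymProj.id (I := I)) hc₀ hE (c := 1) one_pos (fun W hW => by simp) hk
  have hk' : k - Lg C W ∈ TT ⊓ E2 C (-l) :=
    Submodule.sub_mem _ hk ⟨S.Lg W hW.1, Lg_mem hPar hW.2⟩
  refine ⟨W, hW, ?_, ?_, h5, ?_⟩
  · rw [mul_one] at h3
    exact h3
  · have h6 : (2 + 2 / 1 : ℝ) = 4 := by norm_num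
    rw [h6] at h4
    exact h4
  · rw [Qf_slice hI S hk.1 hW.1 (S.hg _ hk'.1 _)]
    exact hhigh _ hk' h1

/-- the field of `step_high` is an eigenfield -/
theorem hg_mem_EY (hPar : C.Par) (S : Spc C o TT VV YY) {l : ℝ} {k : Fin n → Fin n → A}
    (hk : k ∈ TT ⊓ E2 C (-l)) (z : ℝ) : hg C o z (k o o) ∈ EY C YY (-l) := by
  refine ⟨S.hg k hk.1 z, fun i => ?_⟩
  unfold hg
  split_ifs
  · exact Submodule.zero_mem _
  · exact Submodule.smul_mem _ _ (E0_H hPar (hk.2.2.2 o o) i)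

theorem pn_mem_EY (S : Spc C o TT VV YY) {l : ℝ} {W : Fin n → A} (hW : W ∈ VV ⊓ E1 C (-l)) :
    pn o W ∈ EY C YY (-l) := by
  refine ⟨S.pn W hW.1, fun i => ?_⟩
  unfold pn
  split_ifs
  · exact Submodule.zero_mem _
  · exact Submodule.neg_mem _ (hW.2.2 i)

/-- low eigenvalues -/
theorem step_low (hPar : C.Par) (hI : C.IsInt I) {h : ℕ → A → ℝ} {cn : A → ℝ} {s₀ : ℕ} (N : Nm C I h cn s₀)
    (hdef : ∀ f : A, I (f * f) = 0 → f = 0) (S : Spc C o TT VV YY)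
    (An : Ana C I h TT VV) {c₀ : ℝ} (hc₀ : 0 < c₀)
    (hE : ∀ i j, C.Ric i j = if i = j then -(c₀ • (1 : A)) else 0)
    (P : (Fin n → Fin n → A) →ₗ[ℝ] (Fin n → Fin n → A)) (l : ℝ)
    (hP : SymProj I (TT ⊓ E2 C (-l)) P) {c₁ : ℝ} (hc₁ : 0 < c₁)
    (hco : ∀ W ∈ VV, c₁ * B2 I (Lg C W) (Lg C W) ≤ B2 I (P (Lg C W)) (P (Lg C W)))
    (hlow : ∀ k ∈ TT ⊓ E2 C (-l), k ≠ 0 → dv2 C (P k) = 0 → I (∑ i, k i i) = 0 →
      ∃ y ∈ EY C YY (-l), 0 < Qf C I o k y) :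
    ∃ c : ℝ, 0 < c ∧ ∃ K : ℝ, 0 ≤ K ∧ ∀ k ∈ TT ⊓ E2 C (-l), I (∑ i, k i i) = 0 →
      ∃ W ∈ VV ⊓ E1 C (-l), B1 I W W ≤ 1 / (2 * c₀ * c₁) * B2 I k k ∧
      B2 I k k - 2 / c₀ * B1 I (dv2 C k) (dv2 C k) ≤ B2 I (k - Lg C W) (k - Lg C W) ∧
      ∃ y ∈ EY C YY (-l), cV cn y ≤ K * Real.sqrt (B2 I k k) ∧
      c * B2 I (k - Lg C W) (k - Lg C W) ≤ Qf C I o k (y + pn o W) := by
  obtain ⟨c, hc, K, hK, h1⟩ := low_field N hdef An l P hlow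
  have := An.fd1 l
  refine ⟨c, hc, K * Real.sqrt (2 + 2 / c₁), by positivity, fun k hk htr => ?_⟩
  obtain ⟨W, hW, h2, -, h3, h4, h5⟩ := slice_bound (S1 := VV ⊓ E1 C (-l)) (S2 := TT ⊓ E2 C (-l))
    hI N.pos hdef (fun W hW => ⟨S.Lg W hW.1, Lg_mem hPar hW.2⟩)
    (fun k hk => ⟨S.dv k hk.1, dv2_mem hPar hk.2⟩) (fun k hk => hk.2.2.1) (fun W hW => hW.2.1)
    hP hc₀ hE hc₁ (fun W hW => hco W hW.1) hk
  have hk' : k - Lg C W ∈ TT ⊓ E2 C (-l) :=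
    Submodule.sub_mem _ hk ⟨S.Lg W hW.1, Lg_mem hPar hW.2⟩
  obtain ⟨y, hy, hy1, hy2⟩ := h1 _ hk' h2 (by rw [I_tr_sub_Lg hI, htr])
  refine ⟨W, hW, h3, h5, y, hy, ?_, ?_⟩
  · refine hy1.trans ?_
    rw [mul_assoc]
    refine mul_le_mul_of_nonneg_left ?_ hK
    rw [← Real.sqrt_mul (by positivity)]
    exact Real.sqrt_le_sqrt h4
  · rw [Qf_slice hI S hk.1 hW.1 hy.1]
    exact hy2

end Vale.Agent.P207.H824
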