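import Vale.Agent.P207.H824.PosC
import Vale.Agent.P207.H395.SSp2

/-!
# P207 / H824: the analytic facts from the spectral spaces of H395
-/

set_option linter.unusedSectionVars false
set_option linter.unusedVariables false

noncomputable section

namespace Vale.Agent.P207.H824

open Finset H442 H442.FrCalc H571 H395

variable {n : ℕ} {A : Type*} [CommRing A] [Algebra ℝ A] {C : FrCalc n A} {I : A →ₗ[ℝ] ℝ}
variable {h : ℕ → A → ℝ} {cn : A → ℝ} {s₀ : ℕ}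
variable {E : Type*} [AddCommGroup E] [Module ℝ E] {κ : Type*} [Fintype κ]

/-- the components of the objects of a spectral space -/
structure Emb (Q : SSp E) (C : FrCalc n A) (I : A →ₗ[ℝ] ℝ) (h : ℕ → A → ℝ)
    (ev : κ → E →ₗ[ℝ] A) : Prop where
  L : ∀ x α, ev α (Q.L x) = -C.cas (ev α x)
  ip : ∀ x y, Q.ip x y = ∑ α, I (ev α x * ev α y)
  nm : ∀ s, ∃ K : ℝ, 0 ≤ K ∧ ∀ x α, h s (ev α x) ≤ K * Q.nm s x

variable {Q : SSp E} {ev : κ → E →ₗ[ℝ] A}

theorem Emb.eq_zero (Eb : Emb Q C I h ev) {x : E} (hx : ∀ α, ev α x = 0) : x = 0 := by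
  apply Q.pos
  rw [Eb.ip]
  exact Finset.sum_eq_zero fun α _ => by rw [hx, zero_mul, map_zero]

theorem Emb.inj (Eb : Emb Q C I h ev) {x y : E} (hx : ∀ α, ev α x = ev α y) : x = y := by
  rw [← sub_eq_zero]
  exact Eb.eq_zero fun α => by rw [map_sub, hx, sub_self]

/-- eigenvectors and eigenfunctions -/
theorem Emb.eig_iff (Eb : Emb Q C I h ev) {x : E} {l : ℝ} :
    Q.L x = l • x ↔ ∀ α, ev α x ∈ E0 C (-l) := by
  constructor
  · intro hx α
    have h1 := Eb.L x α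
    rw [hx, map_smul] at h1
    rw [mem_E0, neg_smul, h1, neg_neg]
  · intro hx
    apply Eb.inj
    intro α
    rw [Eb.L, map_smul, mem_E0.1 (hx α), neg_smul, neg_neg]

theorem Emb.ev_P (Eb : Emb Q C I h ev) (l : ℝ) (x : E) (α : κ) : ev α (Q.P l x) ∈ E0 C (-l) :=
  Eb.eig_iff.1 (Q.L_P l x) α

/-- iterates of `Λ` on sums of eigenvectors -/
theorem Lam_iter_sum (Q : SSp E) (F : Finset ℝ) (x : ℝ → E) (hx : ∀ l ∈ F, Q.L (x l) = l • x l)
    (j : ℕ) : Q.Lam^[j] (∑ l ∈ F, x l) = ∑ l ∈ F, (l + Q.b + 1) ^ j • x l := by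
  induction j with
  | zero => simp
  | succ j ih =>
    rw [Function.iterate_succ_apply', ih, map_sum]
    refine Finset.sum_congr rfl fun l hl => ?_
    rw [map_smul, SSp.Lam_apply, hx l hl, ← add_smul, smul_smul, pow_succ]
    congr 1
    ring

/-- the inner square of a sum of eigenvectors -/
theorem ip_sum_eig (Q : SSp E) (F : Finset ℝ) (x : ℝ → E) (hx : ∀ l ∈ F, Q.L (x l) = l • x l) :
    Q.ip (∑ l ∈ F, x l) (∑ l ∈ F, x l) = ∑ l ∈ F, Q.ip (x l) (x l) := by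
  rw [map_sum Q.ip x F, LinearMap.sum_apply]
  refine Finset.sum_congr rfl fun l hl => ?_
  rw [map_sum, Finset.sum_eq_single_of_mem l hl]
  intro m hm hne
  exact Q.ip_eig hne.symm (hx l hl) (hx m hm)

/-- **the elliptic estimate on sums of eigenvectors** -/
theorem Emb.ell (Eb : Emb Q C I h ev) (s : ℕ) : ∃ K : ℝ, 0 ≤ K ∧ ∀ (F : Finset ℝ) (x : ℝ → E),
    (∀ l ∈ F, Q.L (x l) = l • x l) → ∀ α,
      h s (ev α (∑ l ∈ F, x l)) ≤ K * Real.sqrt (∑ l ∈ F, (1 + l ^ 2) ^ s * Q.ip (x l) (x l)) := by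
  obtain ⟨K₁, hK₁, h1⟩ := Eb.nm s
  obtain ⟨K₂, hK₂, h2⟩ := Q.exists_nm_le_Lam s
  set D : ℝ := 1 + (Q.b + 1) ^ 2 with hD
  have hD0 : 0 ≤ D := by positivity
  refine ⟨K₁ * (K₂ * Real.sqrt (D ^ s)), by positivity, fun F x hx α => ?_⟩
  have h3 : Q.nm 0 (Q.Lam^[s] (∑ l ∈ F, x l)) ≤
      Real.sqrt (D ^ s) * Real.sqrt (∑ l ∈ F, (1 + l ^ 2) ^ s * Q.ip (x l) (x l)) := by
    rw [Q.nm_zero_eq, ← Real.sqrt_mul (by positivity)]
    apply Real.sqrt_le_sqrt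
    rw [Lam_iter_sum Q F x hx, ip_sum_eig Q F (fun l => (l + Q.b + 1) ^ s • x l) (fun l hl => by
      rw [map_smul, hx l hl, smul_comm]), Finset.mul_sum]
    refine Finset.sum_le_sum fun l hl => ?_
    have h4 : 0 ≤ Q.ip (x l) (x l) := Q.ip_self_nonneg _
    have h5 : Q.ip ((l + Q.b + 1) ^ s • x l) ((l + Q.b + 1) ^ s • x l) =
        ((l + Q.b + 1) ^ 2) ^ s * Q.ip (x l) (x l) := by
      simp only [map_smul, LinearMap.smul_apply, smul_eq_mul]
      rw [← mul_assoc, ← pow_mul, mul_comm 2 s, pow_mul, sq]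
    rw [h5, ← mul_assoc, ← mul_pow]
    refine mul_le_mul_of_nonneg_right (pow_le_pow_left₀ (sq_nonneg _) ?_ s) h4
    rw [hD]
    nlinarith [sq_nonneg (l * (Q.b + 1) - 1)]
  calc h s (ev α (∑ l ∈ F, x l)) ≤ K₁ * Q.nm s (∑ l ∈ F, x l) := h1 _ _
    _ ≤ K₁ * (K₂ * Q.nm 0 (Q.Lam^[s] (∑ l ∈ F, x l))) := by
      refine mul_le_mul_of_nonneg_left ?_ hK₁
      exact (Q.nm_mono (by omega) _).trans (h2 _)
    _ ≤ K₁ * (K₂ * (Real.sqrt (D ^ s) *
        Real.sqrt (∑ l ∈ F, (1 + l ^ 2) ^ s * Q.ip (x l) (x l)))) := by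
      gcongr
    _ = _ := by ring

/-- Cauchy–Schwarz for `I` -/
theorem I_mul_sq_le (hpos : ∀ f : A, 0 ≤ I (f * f)) (u w : A) :
    I (u * w) ^ 2 ≤ I (u * u) * I (w * w) := by
  set b : LinearMap.BilinForm ℝ A := LinearMap.mk₂ ℝ (fun u w => I (u * w))
    (fun u v w => by rw [add_mul, map_add])
    (fun c u w => by rw [smul_mul_assoc, map_smul, smul_eq_mul])
    (fun u v w => by rw [mul_add, map_add])
    (fun c u w => by rw [mul_smul_comm, map_smul, smul_eq_mul]) with hb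
  exact cs_sq (b := b) (fun x y => by simp [hb, mul_comm]) (fun x => hpos x) u w

/-- **spectral decomposition with a tail orthogonal to the eigenfunctions** -/
theorem Emb.spec (Eb : Emb Q C I h ev) (hI : C.IsInt I) (hpos : ∀ f : A, 0 ≤ I (f * f)) (x : E)
    {ε : ℝ} (hε : 0 < ε) : ∃ F : Finset ℝ,
      (∀ l ∈ F, ∀ α, Orth C I (-l) (ev α (x - ∑ l ∈ F, Q.P l x))) ∧
      Q.ip (x - ∑ l ∈ F, Q.P l x) (x - ∑ l ∈ F, Q.P l x) ≤ ε := by
  classical
  obtain ⟨F, hF⟩ := Q.conv 0 x (Real.sqrt ε) (Real.sqrt_pos.2 hε)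
  refine ⟨F, fun l hl α u hu => ?_, ?_⟩
  · -- orthogonality of the tail
    have hsq : ∀ y : E, I (ev α y * ev α y) ≤ Q.nm 0 y ^ 2 := by
      intro y
      rw [Q.nm_zero, Eb.ip]
      exact Finset.single_le_sum (f := fun α => I (ev α y * ev α y)) (fun α _ => hpos _)
        (Finset.mem_univ α)
    have hU := hpos u
    have h1 : ∀ δ > (0 : ℝ), |I (ev α (x - ∑ l ∈ F, Q.P l x) * u)| ≤
        δ * Real.sqrt (I (u * u)) := by
      intro δ hδ
      obtain ⟨G₀, hG₀⟩ := Q.conv 0 x δ hδ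
      have h2 := hG₀ (G₀ ∪ F) Finset.subset_union_left
      set G : Finset ℝ := G₀ ∪ F with hG
      have hsub : F ⊆ G := Finset.subset_union_right
      have h3 : x - ∑ l ∈ F, Q.P l x = (x - ∑ l ∈ G, Q.P l x) + ∑ m ∈ G \ F, Q.P m x := by
        rw [← Finset.sum_sdiff hsub]
        abel
      have h4 : I (ev α (∑ m ∈ G \ F, Q.P m x) * u) = 0 := by
        rw [map_sum, Finset.sum_mul, map_sum]
        refine Finset.sum_eq_zero fun m hm => ?_
        have hne : m ≠ l := fun e => (Finset.mem_sdiff.1 hm).2 (e ▸ hl)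
        exact E0_orth hI (fun e => hne (neg_injective e)) (Eb.ev_P m x α) hu
      rw [h3, map_add, add_mul, map_add, h4, add_zero]
      have h5 := I_mul_sq_le hpos (ev α (x - ∑ l ∈ G, Q.P l x)) u
      have h6 := hsq (x - ∑ l ∈ G, Q.P l x)
      have h7 := Q.nm_nonneg 0 (x - ∑ l ∈ G, Q.P l x)
      have h8 : I (ev α (x - ∑ l ∈ G, Q.P l x) * u) ^ 2 ≤ (δ * Real.sqrt (I (u * u))) ^ 2 := by
        rw [mul_pow, Real.sq_sqrt hU]
        refine h5.trans (mul_le_mul_of_nonneg_right (h6.trans ?_) hU)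
        exact pow_le_pow_left₀ h7 h2.le 2
      exact abs_le_of_sq_le_sq h8 (by positivity)
    have h2 : |I (ev α (x - ∑ l ∈ F, Q.P l x) * u)| ≤ 0 := by
      refine le_of_forall_pos_le_add fun δ hδ => ?_
      have h3 := h1 (δ / (Real.sqrt (I (u * u)) + 1)) (by positivity)
      refine h3.trans ?_
      rw [zero_add, div_mul_eq_mul_div, div_le_iff₀ (by positivity)]
      nlinarith [Real.sqrt_nonneg (I (u * u))]
    exact abs_nonpos_iff.1 h2
  · have h1 := hF F (Finset.Subset.refl F)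
    rw [Q.nm_zero_eq] at h1
    exact (Real.sqrt_lt_sqrt_iff (Q.ip_self_nonneg _)).1 h1 |>.le

/-! ### vector fields and tensors -/

variable {VV : Submodule ℝ (Fin n → A)} {TT : Submodule ℝ (Fin n → Fin n → A)}

/-- spectral space of vector fields -/
structure Emb1 (Q : SSp E) (C : FrCalc n A) (I : A →ₗ[ℝ] ℝ) (h : ℕ → A → ℝ)
    (VV : Submodule ℝ (Fin n → A)) (j : E →ₗ[ℝ] (Fin n → A)) : Prop where
  emb : Emb Q C I h (fun i : Fin n => (LinearMap.proj i).comp j)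
  mem : ∀ x, j x ∈ VV
  surj : ∀ w ∈ VV, ∃ x, j x = w
  T1 : ∀ w ∈ VV, C.T1 w

/-- spectral space of tensors -/
structure Emb2 (Q : SSp E) (C : FrCalc n A) (I : A →ₗ[ℝ] ℝ) (h : ℕ → A → ℝ)
    (TT : Submodule ℝ (Fin n → Fin n → A)) (j : E →ₗ[ℝ] (Fin n → Fin n → A)) : Prop where
  emb : Emb Q C I h (fun p : Fin n × Fin n =>
    ((LinearMap.proj p.2).comp (LinearMap.proj p.1)).comp j)
  mem : ∀ x, j x ∈ TT
  surj : ∀ k ∈ TT, ∃ x, j x = k
  T2 : ∀ k ∈ TT, C.T2 k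
  symm : ∀ k ∈ TT, ∀ i j, k i j = k j i

theorem Emb1.eig {j : E →ₗ[ℝ] (Fin n → A)} (e : Emb1 Q C I h VV j) {x : E} {l : ℝ} :
    Q.L x = l • x ↔ j x ∈ VV ⊓ E1 C (-l) := by
  rw [e.emb.eig_iff]
  exact ⟨fun h => ⟨e.mem x, e.T1 _ (e.mem x), h⟩, fun h => h.2.2⟩

theorem Emb2.eig {j : E →ₗ[ℝ] (Fin n → Fin n → A)} (e : Emb2 Q C I h TT j) {x : E} {l : ℝ} :
    Q.L x = l • x ↔ j x ∈ TT ⊓ E2 C (-l) := by
  rw [e.emb.eig_iff]
  exact ⟨fun h => ⟨e.mem x, e.T2 _ (e.mem x), e.symm _ (e.mem x), fun a b => h (a, b)⟩,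
    fun h p => h.2.2.2 p.1 p.2⟩

theorem Emb1.ip_eq {j : E →ₗ[ℝ] (Fin n → A)} (e : Emb1 Q C I h VV j) (x y : E) :
    Q.ip x y = B1 I (j x) (j y) := e.emb.ip x y

theorem Emb2.ip_eq {j : E →ₗ[ℝ] (Fin n → Fin n → A)} (e : Emb2 Q C I h TT j) (x y : E) :
    Q.ip x y = B2 I (j x) (j y) := by
  rw [e.emb.ip, B2_apply, ← Finset.univ_product_univ, Finset.sum_product]
  rfl

theorem fd_of_surj {V : Type*} [AddCommGroup V] [Module ℝ V] {W : Submodule ℝ V} (K : Submodule ℝ E)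
    [FiniteDimensional ℝ K] (j : E →ₗ[ℝ] V) (hs : ∀ w ∈ W, ∃ x ∈ K, j x = w) :
    FiniteDimensional ℝ W := by
  have h1 : W ≤ K.map j := fun w hw => by
    obtain ⟨x, hx, hx'⟩ := hs w hw
    exact ⟨x, hx, hx'⟩
  have : FiniteDimensional ℝ (K.map j) := Module.Finite.map K j
  exact Submodule.finiteDimensional_of_le h1

theorem mem_ker_eig {x : E} {l : ℝ} :
    x ∈ LinearMap.ker (Q.L - l • LinearMap.id) ↔ Q.L x = l • x := by
  rw [LinearMap.mem_ker, LinearMap.sub_apply, LinearMap.smul_apply, LinearMap.id_apply, sub_eq_zero]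

variable {E' : Type*} [AddCommGroup E'] [Module ℝ E'] {Q' : SSp E'}

/-- **the analytic facts** -/
theorem ana_of_emb (hI : C.IsInt I) (hpos : ∀ f : A, 0 ≤ I (f * f))
    {j₁ : E →ₗ[ℝ] (Fin n → A)} (e₁ : Emb1 Q C I h VV j₁)
    {j₂ : E' →ₗ[ℝ] (Fin n → Fin n → A)} (e₂ : Emb2 Q' C I h TT j₂) : Ana C I h TT VV where
  spec k hk ε hε := by
    obtain ⟨x, rfl⟩ := e₂.surj k hk
    obtain ⟨F, h1, h2⟩ := e₂.emb.spec hI hpos x hε
    have h3 : j₂ x - ∑ l ∈ F, j₂ (Q'.P l x) = j₂ (x - ∑ l ∈ F, Q'.P l x) := by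
      rw [map_sub, map_sum]
    refine ⟨F, fun l => j₂ (Q'.P l x), fun l _ => e₂.eig.1 (Q'.L_P l x), fun l hl i j => ?_, ?_⟩
    · rw [h3]
      exact h1 l hl (i, j)
    · rw [h3, ← e₂.ip_eq]
      exact h2
  fd1 l := by
    have := Q.finiteDimensional_eig l
    exact fd_of_surj (LinearMap.ker (Q.L - l • LinearMap.id)) j₁ fun w hw => by
      obtain ⟨x, rfl⟩ := e₁.surj w hw.1
      exact ⟨x, mem_ker_eig.2 (e₁.eig.2 hw), rfl⟩
  fd2 l := by
    have := Q'.finiteDimensional_eig l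
    exact fd_of_surj (LinearMap.ker (Q'.L - l • LinearMap.id)) j₂ fun w hw => by
      obtain ⟨x, rfl⟩ := e₂.surj w hw.1
      exact ⟨x, mem_ker_eig.2 (e₂.eig.2 hw), rfl⟩
  disc L := by
    refine (Q'.finite_spec L).subset ?_
    rintro l ⟨hl, k, hk, hk0⟩
    obtain ⟨x, rfl⟩ := e₂.surj k hk.1
    refine ⟨hl.le, x, ?_⟩
    rw [Q'.P_eig l x (e₂.eig.2 hk)]
    intro h0
    exact hk0 (by rw [h0, map_zero])
  ell1 s := by
    classical
    obtain ⟨K, hK, h1⟩ := e₁.emb.ell s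
    refine ⟨K, hK, fun F w hw i => ?_⟩
    have hex : ∀ l : ℝ, ∃ x : E, l ∈ F → j₁ x = w l := by
      intro l
      by_cases hl : l ∈ F
      · obtain ⟨x, hx⟩ := e₁.surj _ (hw l hl).1
        exact ⟨x, fun _ => hx⟩
      · exact ⟨0, fun h => absurd h hl⟩
    choose x hx using hex
    have h2 := h1 F x (fun l hl => e₁.eig.2 (by rw [hx l hl]; exact hw l hl)) i
    have h3 : j₁ (∑ l ∈ F, x l) = ∑ l ∈ F, w l := by
      rw [map_sum]
      exact Finset.sum_congr rfl fun l hl => hx l hl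
    have h4 : ∑ l ∈ F, (1 + l ^ 2) ^ s * Q.ip (x l) (x l) =
        ∑ l ∈ F, (1 + l ^ 2) ^ s * B1 I (w l) (w l) := by
      refine Finset.sum_congr rfl fun l hl => ?_
      rw [e₁.ip_eq, hx l hl]
    rw [h4] at h2
    rw [← h3]
    exact h2
  ell2 s := by
    classical
    obtain ⟨K, hK, h1⟩ := e₂.emb.ell s
    refine ⟨K, hK, fun F w hw i j => ?_⟩
    have hex : ∀ l : ℝ, ∃ x : E', l ∈ F → j₂ x = w l := by
      intro l
      by_cases hl : l ∈ F
      · obtain ⟨x, hx⟩ := e₂.surj _ (hw l hl).1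
        exact ⟨x, fun _ => hx⟩
      · exact ⟨0, fun h => absurd h hl⟩
    choose x hx using hex
    have h2 := h1 F x (fun l hl => e₂.eig.2 (by rw [hx l hl]; exact hw l hl)) (i, j)
    have h3 : j₂ (∑ l ∈ F, x l) = ∑ l ∈ F, w l := by
      rw [map_sum]
      exact Finset.sum_congr rfl fun l hl => hx l hl
    have h4 : ∑ l ∈ F, (1 + l ^ 2) ^ s * Q'.ip (x l) (x l) =
        ∑ l ∈ F, (1 + l ^ 2) ^ s * B2 I (w l) (w l) := by
      refine Finset.sum_congr rfl fun l hl => ?_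
      rw [e₂.ip_eq, hx l hl]
    rw [h4] at h2
    rw [← h3]
    exact h2

end Vale.Agent.P207.H824
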