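import Vale.Agent.P207.H824.SpcR
import Vale.Agent.P207.H469.KPr

/-!
# P207 / H824: the components of an equivariant tensor are equivariant
-/

set_option linter.unusedSectionVars false
set_option linter.unusedVariables false

noncomputable section

namespace Vale.Agent.P207.H824

open Finset H442 H442.FrCalc H571 H158

variable {n : ℕ} [NeZero n] {A : Type*} [CommRing A] [Algebra ℝ A] {C : FrCalc n A}
  {ι : Type*} {S : RotAct C ι}

theorem Ro_mem {k : Fin n → Fin n → A} (hk : k ∈ S.mat) : H469.Ro C k ∈ S.mat := by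
  intro s i j
  have ho := (S.rot s).orth
  set b : Fin n × Fin n → Fin n × Fin n → ℝ := fun x y => S.a s x.1 y.1 * S.a s x.2 y.2 with hb
  have hob : ∀ x y, ∑ z, b x z * b y z = if x = y then 1 else 0 := by
    rintro ⟨p, q⟩ ⟨p', q'⟩
    simp only [hb, Fintype.sum_prod_type]
    have e1 : ∀ u v : Fin n, S.a s p u * S.a s q v * (S.a s p' u * S.a s q' v) =
        (S.a s p u * S.a s p' u) * (S.a s q v * S.a s q' v) := fun u v => by ring
    simp only [e1, ← Finset.mul_sum, ← Finset.sum_mul, ho]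
    by_cases h1 : p = p' <;> by_cases h2 : q = q' <;> simp [h1, h2]
  have e1 : ∀ u v, S.E s (C.R i u j v) = ∑ x : Fin n × Fin n, b x (u, v) •
      ∑ p, ∑ r, (S.a s p i * S.a s r j) • C.R p x.1 r x.2 := by
    intro u v
    rw [(S.rot s).R, Fintype.sum_prod_type]
    simp only [hb, Finset.smul_sum, smul_smul]
    calc ∑ p, ∑ q, ∑ r, ∑ t, (S.a s p i * S.a s q u * S.a s r j * S.a s t v) • C.R p q r t
        = ∑ q, ∑ p, ∑ r, ∑ t, (S.a s p i * S.a s q u * S.a s r j * S.a s t v) • C.R p q r t :=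
          Finset.sum_comm
      _ = ∑ q, ∑ p, ∑ t, ∑ r, (S.a s p i * S.a s q u * S.a s r j * S.a s t v) • C.R p q r t :=
          Finset.sum_congr rfl fun q _ => Finset.sum_congr rfl fun p _ => Finset.sum_comm
      _ = ∑ q, ∑ t, ∑ p, ∑ r, (S.a s p i * S.a s q u * S.a s r j * S.a s t v) • C.R p q r t :=
          Finset.sum_congr rfl fun q _ => Finset.sum_comm
      _ = _ := by
          refine Finset.sum_congr rfl fun q _ => Finset.sum_congr rfl fun t _ =>
            Finset.sum_congr rfl fun p _ => Finset.sum_congr rfl fun r _ => ?_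
          congr 1
          ring
  have e2 : ∀ u v, S.E s (k u v) = ∑ x : Fin n × Fin n, b x (u, v) • k x.1 x.2 := by
    intro u v
    rw [hk s u v, Fintype.sum_prod_type]
  have e3 : S.E s (H469.Ro C k i j) = ∑ z : Fin n × Fin n, S.E s (C.R i z.1 j z.2) *
      S.E s (k z.1 z.2) := by
    rw [H469.Ro_apply, Fintype.sum_prod_type]
    simp only [map_sum, map_mul]
  rw [e3]
  simp only [e1, e2]
  rw [H158.sum_mul_orth' hob (fun x : Fin n × Fin n =>
    ∑ p, ∑ r, (S.a s p i * S.a s r j) • C.R p x.1 r x.2) fun x => k x.1 x.2]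
  rw [Fintype.sum_prod_type]
  simp only [H469.Ro_apply, Finset.sum_mul, Finset.smul_sum, smul_mul_assoc]
  calc ∑ q, ∑ t, ∑ p, ∑ r, (S.a s p i * S.a s r j) • (C.R p q r t * k q t)
      = ∑ q, ∑ p, ∑ t, ∑ r, (S.a s p i * S.a s r j) • (C.R p q r t * k q t) :=
        Finset.sum_congr rfl fun q _ => Finset.sum_comm
    _ = ∑ p, ∑ q, ∑ t, ∑ r, (S.a s p i * S.a s r j) • (C.R p q r t * k q t) := Finset.sum_comm
    _ = ∑ p, ∑ q, ∑ r, ∑ t, (S.a s p i * S.a s r j) • (C.R p q r t * k q t) :=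
        Finset.sum_congr rfl fun p _ => Finset.sum_congr rfl fun q _ => Finset.sum_comm
    _ = ∑ p, ∑ r, ∑ q, ∑ t, (S.a s p i * S.a s r j) • (C.R p q r t * k q t) :=
        Finset.sum_congr rfl fun p _ => Finset.sum_comm

theorem gm_mem : gm A ∈ S.mat := by
  have h1 := RotAct.delta_mem (S := S) fun s j k => (S.rot s).orth' j k
  exact h1

theorem dl_tr_mem {k : Fin n → Fin n → A} (hk : k ∈ S.mat) :
    H469.dl (n := n) (H469.tr2 k) ∈ S.mat := by
  have h1 : H469.dl (n := n) (H469.tr2 k) = fun i j => (∑ c, k c c) * gm A i j := by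
    funext i j
    rw [H469.dl_apply, H469.tr2_apply]
    unfold gm
    rw [mul_ite, mul_one, mul_zero]
  rw [h1]
  exact RotAct.mat_mul_scal (RotAct.tr_mem hk) gm_mem

theorem Tm_mem (b : ℝ) {k : Fin n → Fin n → A} (hk : k ∈ S.mat) : H469.Tm C b k ∈ S.mat := by
  rw [H469.Tm_apply]
  exact S.mat.smul_mem _ (S.mat.sub_mem (S.mat.add_mem (Ro_mem hk) (S.mat.smul_mem _ hk))
    (S.mat.smul_mem _ (dl_tr_mem hk)))

/-- **the component of type `(2,2)` of an equivariant tensor** -/
theorem k22_mem (b c₀ : ℝ) {k : Fin n → Fin n → A} (hk : k ∈ symMat S) :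
    H469.k22 C b c₀ k ∈ symMat S := by
  have h1 : H469.k22 C b c₀ k = k - (1 / H469.NN n b c₀) • H469.Tm C b k := rfl
  refine ⟨H469.k22_symm hk.1, ?_⟩
  rw [h1]
  exact S.mat.sub_mem hk.2 (S.mat.smul_mem _ (Tm_mem b hk.2))

end Vale.Agent.P207.H824
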