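import Vale.Agent.P207.H571.Inv

/-!
# P207 / H824: the operators `L`, `div`, Korn's inequality

`B1 I`, `B2 I` are the L²-products on vector families and on families with two indices.
For a vector family `W` on an Einstein space with `Ric = -c₀ g`
`|L_W g|² = 2 |∇W|² + 2 |div W|² + 2 c₀ |W|²`.
-/

set_option linter.unusedSectionVars false

noncomputable section

namespace Vale.Agent.P207.H824

open Finset H442 H442.FrCalc H571

variable {n : ℕ} {A : Type*} [CommRing A] [Algebra ℝ A] {C : FrCalc n A} {I : A →ₗ[ℝ] ℝ}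

/-! ### the L²-products -/

/-- the L²-product on families with one index -/
def B1 (I : A →ₗ[ℝ] ℝ) : LinearMap.BilinForm ℝ (Fin n → A) :=
  LinearMap.mk₂ ℝ (fun u w => ∑ i, I (u i * w i))
    (fun u v w => by simp only [Pi.add_apply, add_mul, map_add, Finset.sum_add_distrib])
    (fun c u w => by
      simp only [Pi.smul_apply, smul_mul_assoc, map_smul, smul_eq_mul, Finset.mul_sum])
    (fun u v w => by simp only [Pi.add_apply, mul_add, map_add, Finset.sum_add_distrib])
    (fun c u w => by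
      simp only [Pi.smul_apply, mul_smul_comm, map_smul, smul_eq_mul, Finset.mul_sum])

theorem B1_apply (u w : Fin n → A) : B1 I u w = ∑ i, I (u i * w i) := rfl

/-- the L²-product on families with two indices -/
def B2 (I : A →ₗ[ℝ] ℝ) : LinearMap.BilinForm ℝ (Fin n → Fin n → A) :=
  LinearMap.mk₂ ℝ (fun u w => ∑ i, ∑ j, I (u i j * w i j))
    (fun u v w => by simp only [Pi.add_apply, add_mul, map_add, Finset.sum_add_distrib])
    (fun c u w => by
      simp only [Pi.smul_apply, smul_mul_assoc, map_smul, smul_eq_mul, Finset.mul_sum])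
    (fun u v w => by simp only [Pi.add_apply, mul_add, map_add, Finset.sum_add_distrib])
    (fun c u w => by
      simp only [Pi.smul_apply, mul_smul_comm, map_smul, smul_eq_mul, Finset.mul_sum])

theorem B2_apply (u w : Fin n → Fin n → A) : B2 I u w = ∑ i, ∑ j, I (u i j * w i j) := rfl

theorem B1_symm (u w : Fin n → A) : B1 I u w = B1 I w u := by
  simp only [B1_apply]
  exact Finset.sum_congr rfl fun i _ => by rw [mul_comm]

theorem B2_symm (u w : Fin n → Fin n → A) : B2 I u w = B2 I w u := by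
  simp only [B2_apply]
  exact Finset.sum_congr rfl fun i _ => Finset.sum_congr rfl fun j _ => by rw [mul_comm]

theorem B1_nonneg (hpos : ∀ f : A, 0 ≤ I (f * f)) (u : Fin n → A) : 0 ≤ B1 I u u := by
  rw [B1_apply]
  exact Finset.sum_nonneg fun i _ => hpos (u i)

theorem B2_nonneg (hpos : ∀ f : A, 0 ≤ I (f * f)) (u : Fin n → Fin n → A) : 0 ≤ B2 I u u := by
  rw [B2_apply]
  exact Finset.sum_nonneg fun i _ => Finset.sum_nonneg fun j _ => hpos (u i j)

theorem eq_zero_of_B1 (hpos : ∀ f : A, 0 ≤ I (f * f)) (hdef : ∀ f : A, I (f * f) = 0 → f = 0)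
    {u : Fin n → A} (h : B1 I u u = 0) : u = 0 := by
  rw [B1_apply] at h
  funext i
  have h1 := (Finset.sum_eq_zero_iff_of_nonneg (fun i _ => hpos (u i))).1 h i (Finset.mem_univ i)
  exact hdef _ h1

/-! ### a Cauchy–Schwarz inequality for semidefinite forms -/

section Semi

variable {E F : Type*} [AddCommGroup E] [Module ℝ E] [AddCommGroup F] [Module ℝ F]

theorem cs_sq {b : LinearMap.BilinForm ℝ F} (hs : ∀ x y, b x y = b y x)
    (hp : ∀ x, 0 ≤ b x x) (x y : F) : b x y ^ 2 ≤ b x x * b y y := by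
  have key : ∀ t : ℝ, 0 ≤ b y y * (t * t) + (2 * b x y) * t + b x x := by
    intro t
    have h := hp (x + t • y)
    simp only [map_add, map_smul, LinearMap.add_apply, LinearMap.smul_apply, smul_eq_mul,
      hs y x] at h
    linarith
  have h2 := discrim_le_zero key
  unfold discrim at h2
  nlinarith [h2]

theorem cs_zero {b : LinearMap.BilinForm ℝ F} (hs : ∀ x y, b x y = b y x)
    (hp : ∀ x, 0 ≤ b x x) (x : F) {y : F} (hy : b y y = 0) : b x y = 0 := by
  have h := cs_sq hs hp x y
  rw [hy, mul_zero] at h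
  exact pow_eq_zero_iff (two_ne_zero) |>.1 (le_antisymm h (sq_nonneg _))

/-- least squares for a semidefinite form on a finite dimensional space -/
theorem least_squares [FiniteDimensional ℝ E] {b : LinearMap.BilinForm ℝ F}
    (hs : ∀ x y, b x y = b y x) (hp : ∀ x, 0 ≤ b x x) (T : E →ₗ[ℝ] F) (x : F) :
    ∃ w : E, ∀ v : E, b (x - T w) (T v) = 0 := by
  set β : E →ₗ[ℝ] Module.Dual ℝ E := (b.compl₁₂ T T) with hβ
  set ℓ : Module.Dual ℝ E := (b x).comp T with hℓ
  have h1 : ℓ ∈ (LinearMap.ker β).dualAnnihilator := by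
    rw [Submodule.mem_dualAnnihilator]
    intro v hv
    have h2 : b (T v) (T v) = 0 := by
      have h3 := congrArg (fun φ : Module.Dual ℝ E => φ v) (LinearMap.mem_ker.1 hv)
      simpa [hβ] using h3
    simp only [hℓ, LinearMap.comp_apply]
    exact cs_zero hs hp x h2
  rw [← LinearMap.range_dualMap_eq_dualAnnihilator_ker] at h1
  obtain ⟨φ, hφ⟩ := h1
  obtain ⟨w, hw⟩ := (Module.evalEquiv ℝ E).surjective φ
  refine ⟨w, fun v => ?_⟩
  have h4 : b x (T v) = b (T v) (T w) := by
    have h5 := congrArg (fun φ : Module.Dual ℝ E => φ v) hφ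
    simp only [LinearMap.dualMap_apply, ← hw, Module.evalEquiv_apply, Module.Dual.eval_apply,
      hβ, hℓ, LinearMap.comp_apply, LinearMap.compl₁₂_apply] at h5
    exact h5.symm
  rw [map_sub, LinearMap.sub_apply, h4, hs (T w), sub_self]

end Semi

/-! ### the operators -/

variable (C) in
/-- the divergence of a vector family -/
def dv1 (W : Fin n → A) : A := ∑ i, C.H i (W i)

variable (C) in
/-- the divergence of a family with two indices -/
def dv2 (k : Fin n → Fin n → A) (j : Fin n) : A := ∑ i, C.H i (k i j)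

variable (C) in
/-- the Lie derivative as a linear map -/
def LgL : (Fin n → A) →ₗ[ℝ] (Fin n → Fin n → A) where
  toFun := Lg C
  map_add' u w := by
    funext i j
    simp only [Lg, Pi.add_apply, map_add]
    abel
  map_smul' c u := by
    funext i j
    simp only [Lg, Pi.smul_apply, Derivation.map_smul, RingHom.id_apply, smul_add]

theorem LgL_apply (W : Fin n → A) : LgL C W = Lg C W := rfl

variable (C) in
/-- the divergence as a linear map -/
def dvL : (Fin n → Fin n → A) →ₗ[ℝ] (Fin n → A) where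
  toFun := dv2 C
  map_add' u w := by
    funext j
    simp only [dv2, Pi.add_apply, map_add, Finset.sum_add_distrib]
  map_smul' c u := by
    funext j
    simp only [dv2, Pi.smul_apply, Derivation.map_smul, RingHom.id_apply, Finset.smul_sum]

theorem dvL_apply (k : Fin n → Fin n → A) : dvL C k = dv2 C k := rfl

/-- `div` is minus one half of the adjoint of `L` -/
theorem B2_Lg (hI : C.IsInt I) {k : Fin n → Fin n → A} (hs : ∀ i j, k i j = k j i)
    (W : Fin n → A) : B2 I k (Lg C W) = -2 * B1 I (dv2 C k) W := by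
  have e1 : ∑ i, ∑ j, I (k i j * C.H j (W i)) = ∑ i, ∑ j, I (k i j * C.H i (W j)) := by
    rw [Finset.sum_comm]
    refine Finset.sum_congr rfl fun i _ => Finset.sum_congr rfl fun j _ => ?_
    rw [hs]
  have e2 : ∑ i, ∑ j, I (k i j * C.H i (W j)) = -B1 I (dv2 C k) W := by
    simp only [hI.mul_H, Finset.sum_neg_distrib, B1_apply, dv2, Finset.sum_mul, map_sum]
    rw [Finset.sum_comm]
  simp only [B2_apply, Lg, mul_add, map_add, Finset.sum_add_distrib]
  rw [e1, e2]
  ring

/-- the norm of the covariant derivative -/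
def nab (C : FrCalc n A) (W : Fin n → A) (i j : Fin n) : A := C.H i (W j)

/-- **Korn's identity** -/
theorem korn_id (hI : C.IsInt I) {W : Fin n → A} (hW : C.T1 W) :
    B2 I (Lg C W) (Lg C W) = 2 * B2 I (nab C W) (nab C W) + 2 * I (dv1 C W * dv1 C W)
      - 2 * ∑ i, ∑ j, I (C.Ric i j * W i * W j) := by
  have e1 : ∑ i, ∑ j, I (C.H j (W i) * C.H j (W i)) = ∑ i, ∑ j, I (C.H i (W j) * C.H i (W j)) :=
    Finset.sum_comm
  have e2 : ∀ i j, I (C.H i (W j) * C.H j (W i)) = I (C.H j (W j) * C.H i (W i))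
      - ∑ c, I (W j * (C.R i j c i * W c)) := by
    intro i j
    rw [hI.H_mul, hW.comm i j i, mul_add, map_add, hI.mul_H, Finset.mul_sum, map_sum]
    ring
  have e3 : ∑ i, ∑ j, I (C.H j (W j) * C.H i (W i)) = I (dv1 C W * dv1 C W) := by
    unfold dv1
    simp only [Finset.sum_mul, Finset.mul_sum, map_sum]
  have e4 : ∑ i, ∑ j, ∑ c, I (W j * (C.R i j c i * W c)) =
      ∑ i, ∑ j, I (C.Ric i j * W i * W j) := by
    have e5 : ∀ i j, I (C.Ric i j * W i * W j) = ∑ c, I (W j * (C.R c j i c * W i)) := by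
      intro i j
      rw [Ric, Finset.sum_mul, Finset.sum_mul, map_sum]
      refine Finset.sum_congr rfl fun c _ => ?_
      rw [C.R_pair c j i c]
      congr 1
      ring
    simp only [e5]
    calc ∑ i, ∑ j, ∑ c, I (W j * (C.R i j c i * W c))
        = ∑ i, ∑ c, ∑ j, I (W j * (C.R i j c i * W c)) :=
          Finset.sum_congr rfl fun i _ => Finset.sum_comm
      _ = ∑ c, ∑ i, ∑ j, I (W j * (C.R i j c i * W c)) := Finset.sum_comm
      _ = _ := Finset.sum_congr rfl fun c _ => Finset.sum_comm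
  have e6 : B2 I (Lg C W) (Lg C W) = (∑ i, ∑ j, I (C.H i (W j) * C.H i (W j)))
      + (∑ i, ∑ j, I (C.H j (W i) * C.H j (W i)))
      + 2 * ∑ i, ∑ j, I (C.H i (W j) * C.H j (W i)) := by
    have e7 : ∀ i j, I (Lg C W i j * Lg C W i j) = I (C.H i (W j) * C.H i (W j))
        + I (C.H j (W i) * C.H j (W i)) + 2 * I (C.H i (W j) * C.H j (W i)) := by
      intro i j
      have e8 : Lg C W i j * Lg C W i j = C.H i (W j) * C.H i (W j)
          + C.H j (W i) * C.H j (W i) + (2 : ℝ) • (C.H i (W j) * C.H j (W i)) := by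
        unfold Lg
        rw [two_smul]
        ring
      rw [e8, map_add, map_add, map_smul, smul_eq_mul]
    simp only [B2_apply, e7, Finset.sum_add_distrib, Finset.mul_sum]
  rw [e6, e1]
  simp only [e2, Finset.sum_sub_distrib]
  rw [e3, e4]
  simp only [B2_apply, nab]
  ring

/-- Korn's identity on an Einstein space -/
theorem korn_einstein (hI : C.IsInt I) {c₀ : ℝ}
    (hE : ∀ i j, C.Ric i j = if i = j then -(c₀ • (1 : A)) else 0)
    {W : Fin n → A} (hW : C.T1 W) :
    B2 I (Lg C W) (Lg C W) = 2 * B2 I (nab C W) (nab C W) + 2 * I (dv1 C W * dv1 C W)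
      + 2 * c₀ * B1 I W W := by
  rw [korn_id hI hW]
  have e1 : ∀ i j, I (C.Ric i j * W i * W j) = if i = j then -(c₀ * I (W i * W i)) else 0 := by
    intro i j
    rw [hE]
    split_ifs with h
    · rw [← h, neg_mul, neg_mul, map_neg, smul_mul_assoc, one_mul, smul_mul_assoc, map_smul,
        smul_eq_mul]
    · simp
  simp only [e1, Finset.sum_ite_eq, Finset.mem_univ, if_true, Finset.sum_neg_distrib,
    ← Finset.mul_sum, B1_apply]
  ring

/-- **Korn's inequality** -/
theorem korn (hI : C.IsInt I) (hpos : ∀ f : A, 0 ≤ I (f * f)) {c₀ : ℝ}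
    (hE : ∀ i j, C.Ric i j = if i = j then -(c₀ • (1 : A)) else 0)
    {W : Fin n → A} (hW : C.T1 W) :
    2 * B2 I (nab C W) (nab C W) + 2 * c₀ * B1 I W W ≤ B2 I (Lg C W) (Lg C W) := by
  rw [korn_einstein hI hE hW]
  linarith [hpos (dv1 C W)]

/-- **the distance to the Lie derivatives**: `|k - L_V g|² ≥ |k|² - (2/c₀) |div k|²` -/
theorem dist_Lg (hI : C.IsInt I) (hpos : ∀ f : A, 0 ≤ I (f * f)) {c₀ : ℝ} (hc : 0 < c₀)
    (hE : ∀ i j, C.Ric i j = if i = j then -(c₀ • (1 : A)) else 0)
    {k : Fin n → Fin n → A} (hs : ∀ i j, k i j = k j i) {V : Fin n → A} (hV : C.T1 V) :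
    B2 I k k - 2 / c₀ * B1 I (dv2 C k) (dv2 C k) ≤ B2 I (k - Lg C V) (k - Lg C V) := by
  have h1 : B2 I (k - Lg C V) (k - Lg C V) =
      B2 I k k - 2 * B2 I k (Lg C V) + B2 I (Lg C V) (Lg C V) := by
    simp only [map_sub, LinearMap.sub_apply]
    rw [B2_symm (Lg C V) k]
    ring
  have h2 := korn hI hpos hE hV
  have h3 := B2_nonneg hpos (nab C V)
  have h4 := B2_Lg hI hs V
  have h6 : 0 ≤ B1 I (dv2 C k + c₀ • V) (dv2 C k + c₀ • V) := B1_nonneg hpos _
  have h7 : B1 I (dv2 C k + c₀ • V) (dv2 C k + c₀ • V) =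
      B1 I (dv2 C k) (dv2 C k) + 2 * c₀ * B1 I (dv2 C k) V + c₀ ^ 2 * B1 I V V := by
    simp only [map_add, map_smul, LinearMap.add_apply, LinearMap.smul_apply, smul_eq_mul]
    rw [B1_symm V (dv2 C k)]
    ring
  have h8 : 0 ≤ 2 / c₀ * (B1 I (dv2 C k) (dv2 C k) + 2 * c₀ * B1 I (dv2 C k) V
      + c₀ ^ 2 * B1 I V V) := by
    rw [← h7]
    positivity
  have h9 : 2 / c₀ * (B1 I (dv2 C k) (dv2 C k) + 2 * c₀ * B1 I (dv2 C k) V
      + c₀ ^ 2 * B1 I V V) = 2 / c₀ * B1 I (dv2 C k) (dv2 C k) + 4 * B1 I (dv2 C k) V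
      + 2 * c₀ * B1 I V V := by
    field_simp
    ring
  rw [h9] at h8
  rw [h1, h4]
  linarith

end Vale.Agent.P207.H824
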