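import Mathlib

/-!
# P207 / H824: compactness on a finite dimensional space

`q(k, y) = a(k, k) + b(k, y) + c(y)` with `c` homogeneous of degree two.  If for every `k ≠ 0` of a
finite dimensional space there is a `y` with `q(k, y) > 0`, then `q(k, y) ≥ c₀ |k|²` with
`ν(y) ≤ K |k|`.
-/

set_option linter.unusedSectionVars false

noncomputable section

namespace Vale.Agent.P207.H824

section

variable {E : Type*} [AddCommGroup E] [Module ℝ E] [FiniteDimensional ℝ E]

/-- coordinates on a finite dimensional space -/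
theorem exists_coord (E : Type*) [AddCommGroup E] [Module ℝ E] [FiniteDimensional ℝ E] :
    ∃ (d : ℕ), Nonempty (EuclideanSpace ℝ (Fin d) ≃ₗ[ℝ] E) := by
  refine ⟨Module.finrank ℝ E, ⟨?_⟩⟩
  exact LinearEquiv.ofFinrankEq _ _ (by simp)

theorem continuous_bilin {d : ℕ} (e : EuclideanSpace ℝ (Fin d) →ₗ[ℝ] E)
    (a : LinearMap.BilinForm ℝ E) : Continuous fun x : EuclideanSpace ℝ (Fin d) => a (e x) (e x) := by
  have h1 : Continuous fun x : EuclideanSpace ℝ (Fin d) => LinearMap.toContinuousLinearMap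
      ((a.compl₁₂ e e) x) :=
    (LinearMap.toContinuousLinearMap (E := EuclideanSpace ℝ (Fin d))
      (F' := EuclideanSpace ℝ (Fin d) →L[ℝ] ℝ)
      ((LinearMap.toContinuousLinearMap.toLinearMap).comp (a.compl₁₂ e e))).continuous
  exact h1.clm_apply continuous_id

variable {Y : Type*} [AddCommGroup Y] [Module ℝ Y]

/-- **compactness on a finite dimensional space** -/
theorem low_compact (a : LinearMap.BilinForm ℝ E) (b : E →ₗ[ℝ] Y →ₗ[ℝ] ℝ) (c : Y → ℝ)
    (hc : ∀ (t : ℝ) y, c (t • y) = t ^ 2 * c y) (ν : Y → ℝ) (hν : ∀ (t : ℝ) y, ν (t • y) = |t| * ν y)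
    (N : LinearMap.BilinForm ℝ E) (hN : ∀ k, k ≠ 0 → 0 < N k k)
    (h : ∀ k, k ≠ 0 → ∃ y, 0 < a k k + b k y + c y) :
    ∃ c₀ : ℝ, 0 < c₀ ∧ ∃ K : ℝ, 0 ≤ K ∧
      ∀ k, ∃ y, ν y ≤ K * Real.sqrt (N k k) ∧ c₀ * N k k ≤ a k k + b k y + c y := by
  obtain ⟨d, ⟨e⟩⟩ := exists_coord E
  set S : Set (EuclideanSpace ℝ (Fin d)) := Metric.sphere 0 1 with hS
  have hSc : IsCompact S := isCompact_sphere 0 1
  have hne : ∀ x ∈ S, e x ≠ 0 := by
    intro x hx h0
    have h1 : x = 0 := (LinearEquiv.map_eq_zero_iff e).1 h0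
    rw [hS, mem_sphere_zero_iff_norm, h1, norm_zero] at hx
    exact zero_ne_one hx
  have hcN : Continuous fun x : EuclideanSpace ℝ (Fin d) => N (e x) (e x) :=
    continuous_bilin e.toLinearMap N
  have hca : Continuous fun x : EuclideanSpace ℝ (Fin d) => a (e x) (e x) :=
    continuous_bilin e.toLinearMap a
  have hcb : ∀ y, Continuous fun x : EuclideanSpace ℝ (Fin d) => b (e x) y := fun y =>
    LinearMap.continuous_of_finiteDimensional ((b.flip y).comp e.toLinearMap)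
  -- bounds of `N`
  have hscale : ∀ (B : LinearMap.BilinForm ℝ E) (t : ℝ) (k : E), B (t • k) (t • k) =
      t ^ 2 * B k k := by
    intro B t k
    simp only [map_smul, LinearMap.smul_apply, smul_eq_mul]
    ring
  have hN1 : ∃ m : ℝ, 0 < m ∧ ∀ x ∈ S, m ≤ N (e x) (e x) := by
    rcases S.eq_empty_or_nonempty with h0 | h0
    · exact ⟨1, one_pos, fun x hx => by rw [h0] at hx; exact absurd hx (Set.notMem_empty x)⟩
    · obtain ⟨x₀, hx₀, hmin⟩ := hSc.exists_isMinOn h0 hcN.continuousOn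
      exact ⟨N (e x₀) (e x₀), hN _ (hne x₀ hx₀), fun x hx => hmin hx⟩
  have hN2 : ∃ M' : ℝ, 0 < M' ∧ ∀ x ∈ S, N (e x) (e x) ≤ M' := by
    obtain ⟨M', hM'⟩ := hSc.exists_bound_of_continuousOn hcN.continuousOn
    exact ⟨max M' 1, lt_max_of_lt_right one_pos, fun x hx =>
      le_trans (le_abs_self _) (le_trans (hM' x hx) (le_max_left _ _))⟩
  obtain ⟨m, hm, hmle⟩ := hN1
  obtain ⟨M', hM', hM'le⟩ := hN2
  -- the fields
  have hy : ∀ x : S, ∃ y : Y, 0 < a (e x) (e x) + b (e x) y + c y := fun x => h _ (hne x x.2)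
  choose y hy using hy
  set q : S → EuclideanSpace ℝ (Fin d) → ℝ := fun x z => a (e z) (e z) + b (e z) (y x) + c (y x)
    with hq
  have hqc : ∀ x, Continuous (q x) := fun x => (hca.add (hcb (y x))).add continuous_const
  obtain ⟨T, hT⟩ := hSc.elim_finite_subcover (fun x : S => {z | q x x / 2 < q x z})
    (fun x => isOpen_lt continuous_const (hqc x)) (fun z hz => Set.mem_iUnion.2 ⟨⟨z, hz⟩, by
      have h1 : 0 < q ⟨z, hz⟩ z := hy ⟨z, hz⟩
      exact half_lt_self h1⟩)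
  have hδ : ∃ δ : ℝ, 0 < δ ∧ ∀ x ∈ T, δ ≤ q x x / 2 := by
    rcases T.eq_empty_or_nonempty with h0 | h0
    · exact ⟨1, one_pos, fun x hx => by rw [h0] at hx; exact absurd hx (Finset.notMem_empty x)⟩
    · obtain ⟨x₀, hx₀, hmin⟩ := T.exists_min_image (fun x => q x x / 2) h0
      exact ⟨q x₀ x₀ / 2, half_pos (hy x₀), fun x hx => hmin x hx⟩
  obtain ⟨δ, hδ, hδle⟩ := hδ
  set K₁ : ℝ := ∑ x ∈ T, |ν (y x)| with hK₁
  have hK₁0 : 0 ≤ K₁ := Finset.sum_nonneg fun x _ => abs_nonneg _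
  have hK₁le : ∀ x ∈ T, ν (y x) ≤ K₁ := fun x hx =>
    le_trans (le_abs_self _) (Finset.single_le_sum (f := fun x => |ν (y x)|)
      (fun x _ => abs_nonneg _) hx)
  refine ⟨δ / M', by positivity, K₁ / Real.sqrt m, by positivity, fun k => ?_⟩
  by_cases hk : k = 0
  · have hc0 : c 0 = 0 := by
      have h1 := hc 0 0
      rw [smul_zero] at h1
      simpa using h1
    have hν0 : ν 0 = 0 := by
      have h1 := hν 0 0
      rw [smul_zero] at h1
      simpa using h1
    refine ⟨0, ?_, ?_⟩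
    · rw [hk, hν0]
      simp
    · rw [hk, hc0]
      simp
  set z : EuclideanSpace ℝ (Fin d) := e.symm k with hz
  have hz0 : z ≠ 0 := by
    intro h0
    exact hk (by rw [← e.apply_symm_apply k, ← hz, h0, map_zero])
  set r : ℝ := ‖z‖ with hr
  have hr0 : 0 < r := norm_pos_iff.2 hz0
  set u : EuclideanSpace ℝ (Fin d) := r⁻¹ • z with hu
  have huS : u ∈ S := by
    rw [hS, mem_sphere_zero_iff_norm, hu, norm_smul, norm_inv, norm_norm, ← hr]
    exact inv_mul_cancel₀ hr0.ne'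
  have hku : k = r • e u := by
    rw [hu, map_smul, smul_smul, mul_inv_cancel₀ hr0.ne', one_smul, hz, e.apply_symm_apply]
  obtain ⟨x, hxT, hxu⟩ : ∃ x ∈ T, q x x / 2 < q x u := by
    have h1 := hT huS
    simpa using h1
  have hqu : δ ≤ q x u := le_trans (hδle x hxT) hxu.le
  have hNk : N k k = r ^ 2 * N (e u) (e u) := by rw [hku, hscale]
  refine ⟨r • y x, ?_, ?_⟩
  · rw [hν, abs_of_pos hr0]
    have h2 : m * r ^ 2 ≤ N k k := by
      rw [hNk]
      nlinarith [hmle u huS, sq_nonneg r]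
    have h3 : Real.sqrt m * r ≤ Real.sqrt (N k k) := by
      rw [← Real.sqrt_sq hr0.le, ← Real.sqrt_mul hm.le]
      exact Real.sqrt_le_sqrt h2
    have hsm : 0 < Real.sqrt m := Real.sqrt_pos.2 hm
    have h4 : r * ν (y x) ≤ r * K₁ := mul_le_mul_of_nonneg_left (hK₁le x hxT) hr0.le
    have h5 : r * K₁ = K₁ / Real.sqrt m * (Real.sqrt m * r) := by
      field_simp
    calc r * ν (y x) ≤ K₁ / Real.sqrt m * (Real.sqrt m * r) := by rw [← h5]; exact h4
      _ ≤ K₁ / Real.sqrt m * Real.sqrt (N k k) :=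
        mul_le_mul_of_nonneg_left h3 (by positivity)
  · have h6 : a k k + b k (r • y x) + c (r • y x) = r ^ 2 * q x u := by
      rw [hc, hku, hscale, map_smul b, LinearMap.smul_apply, map_smul (b (e u)), smul_eq_mul,
        smul_eq_mul]
      simp only [hq]
      ring
    rw [h6, hNk]
    have h7 : δ / M' * (r ^ 2 * N (e u) (e u)) = r ^ 2 * (δ * (N (e u) (e u) / M')) := by ring
    rw [h7]
    refine mul_le_mul_of_nonneg_left ?_ (sq_nonneg r)
    have h8 : N (e u) (e u) / M' ≤ 1 := (div_le_one hM').2 (hM'le u huS)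
    nlinarith

end

end Vale.Agent.P207.H824
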