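import Vale.Agent.P207.H395.NSys

/-!
# P207 / H824: elementary properties of the norms of a system of flows
-/

open Filter Topology MeasureTheory

set_option linter.unusedSectionVars false

noncomputable section

namespace Vale.Agent.P207.H824

open H395

variable {ι : Type} [Fintype ι] {N : Type} [TopologicalSpace N] [CompactSpace N]
  [MeasurableSpace N] [BorelSpace N] {μ : Measure N} [IsFiniteMeasure μ]

theorem cN_add (S : NSys ι N μ) (s : ℕ) (u v : S.A) : S.cN s (u + v) ≤ S.cN s u + S.cN s v := by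
  induction s generalizing u v with
  | zero => exact norm_add_le _ _
  | succ s ih =>
    change S.cN s (u + v) + ∑ a, S.cN s (S.X a (u + v)) ≤
      (S.cN s u + ∑ a, S.cN s (S.X a u)) + (S.cN s v + ∑ a, S.cN s (S.X a v))
    have h1 : ∑ a, S.cN s (S.X a (u + v)) ≤ ∑ a, S.cN s (S.X a u) + ∑ a, S.cN s (S.X a v) := by
      rw [← Finset.sum_add_distrib]
      refine Finset.sum_le_sum fun a _ => ?_
      rw [map_add]
      exact ih _ _
    have h2 := ih u v
    linarith

theorem cN_smul (S : NSys ι N μ) (s : ℕ) (c : ℝ) (u : S.A) :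
    S.cN s (c • u) = |c| * S.cN s u := by
  induction s generalizing u with
  | zero => exact norm_smul c _
  | succ s ih =>
    change S.cN s (c • u) + ∑ a, S.cN s (S.X a (c • u)) =
      |c| * (S.cN s u + ∑ a, S.cN s (S.X a u))
    rw [ih, mul_add, Finset.mul_sum]
    congr 1
    refine Finset.sum_congr rfl fun a _ => ?_
    rw [Derivation.map_smul, ih]

/-- multiplication by a continuous function -/
theorem int_mul_sq_le (φ f : C(N, ℝ)) :
    ∫ p, ((φ * f) * (φ * f)) p ∂μ ≤ ‖φ‖ ^ 2 * ∫ p, (f * f) p ∂μ := by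
  have h1 : ∀ g : C(N, ℝ), Integrable g μ := fun g =>
    g.continuous.integrable_of_hasCompactSupport (HasCompactSupport.of_compactSpace _)
  rw [← integral_const_mul]
  refine integral_mono (h1 _) ((h1 _).const_mul _) fun p => ?_
  change (φ p * f p) * (φ p * f p) ≤ ‖φ‖ ^ 2 * (f p * f p)
  have h2 : |φ p| ≤ ‖φ‖ := φ.norm_coe_le_norm p
  have h3 : φ p * φ p ≤ ‖φ‖ ^ 2 := by
    rw [← sq, ← sq_abs]
    exact pow_le_pow_left₀ (abs_nonneg _) h2 2
  have h4 : 0 ≤ f p * f p := mul_self_nonneg _
  nlinarith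

end Vale.Agent.P207.H824
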