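import Vale.Agent.P207.H824.PosN

/-!
# P207 / H824: the norms of a system of derivations
-/

set_option linter.unusedSectionVars false
set_option linter.unusedVariables false

noncomputable section

namespace Vale.Agent.P207.H824

open Finset H442 H442.FrCalc H571

variable {n : ℕ} {A : Type*} [CommRing A] [Algebra ℝ A] {C : FrCalc n A} {I : A →ₗ[ℝ] ℝ}

/-- a scale of norms given by a system of derivations -/
structure Sc {ι : Type*} [Fintype ι] (X : ι → Derivation ℝ A A) (I : A →ₗ[ℝ] ℝ)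
    (h : ℕ → A → ℝ) : Prop where
  add : ∀ s u v, h s (u + v) ≤ h s u + h s v
  smul : ∀ s (t : ℝ) u, h s (t • u) = |t| * h s u
  nonneg : ∀ s u, 0 ≤ h s u
  succ : ∀ s u, h (s + 1) u = h s u + ∑ a, h s (X a u)
  zero : ∀ u, h 0 u ^ 2 = I (u * u)
  bd : ∀ φ : A, ∃ B : ℝ, 0 ≤ B ∧ ∀ f, I ((φ * f) * (φ * f)) ≤ B * I (f * f)

section

variable {ι : Type*} [Fintype ι] {X : ι → Derivation ℝ A A} {h : ℕ → A → ℝ} (S : Sc X I h)
include S

theorem Sc.X_le (s : ℕ) (a : ι) (u : A) : h s (X a u) ≤ h (s + 1) u := by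
  rw [S.succ]
  have h1 := Finset.single_le_sum (f := fun a => h s (X a u)) (fun a _ => S.nonneg s _)
    (Finset.mem_univ a)
  have h2 := S.nonneg s u
  linarith

theorem Sc.le_succ (s : ℕ) (u : A) : h s u ≤ h (s + 1) u := by
  rw [S.succ]
  have h1 : 0 ≤ ∑ a, h s (X a u) := Finset.sum_nonneg fun a _ => S.nonneg s _
  linarith

theorem Sc.mono {s s' : ℕ} (hs : s ≤ s') (u : A) : h s u ≤ h s' u := by
  induction hs with
  | refl => exact le_rfl
  | step _ ih => exact ih.trans (S.le_succ _ u)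

theorem Sc.h_z (s : ℕ) : h s 0 = 0 := by
  have h1 := S.smul s 0 0
  rw [smul_zero] at h1
  simpa using h1

theorem Sc.sum_le (s : ℕ) {κ : Type*} (F : Finset κ) (u : κ → A) :
    h s (∑ l ∈ F, u l) ≤ ∑ l ∈ F, h s (u l) := by
  classical
  induction F using Finset.induction_on with
  | empty => simp [S.h_z]
  | insert a F ha ih =>
    rw [Finset.sum_insert ha, Finset.sum_insert ha]
    exact (S.add s _ _).trans (by linarith)

/-- multiplication by a fixed function -/
theorem Sc.mul (s : ℕ) : ∀ φ : A, ∃ K : ℝ, 0 ≤ K ∧ ∀ u, h s (φ * u) ≤ K * h s u := by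
  induction s with
  | zero =>
    intro φ
    obtain ⟨B, hB, h1⟩ := S.bd φ
    refine ⟨Real.sqrt B, Real.sqrt_nonneg _, fun u => ?_⟩
    have h2 := h1 u
    rw [← S.zero, ← S.zero] at h2
    have h3 := S.nonneg 0 (φ * u)
    have h4 := S.nonneg 0 u
    rw [← Real.sqrt_sq h3, ← Real.sqrt_sq h4, ← Real.sqrt_mul hB]
    exact Real.sqrt_le_sqrt h2
  | succ s ih =>
    intro φ
    obtain ⟨K, hK, h1⟩ := ih φ
    choose K' hK' h2 using fun a => ih (X a φ)
    refine ⟨K + ∑ a, K' a, add_nonneg hK (Finset.sum_nonneg fun a _ => hK' a), fun u => ?_⟩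
    have h3 : ∀ a, h s (X a (φ * u)) ≤ K * h s (X a u) + K' a * h s u := by
      intro a
      rw [Derivation.leibniz, smul_eq_mul, smul_eq_mul, mul_comm u]
      exact (S.add s _ _).trans (add_le_add (h1 _) (h2 a u))
    have h4 := S.nonneg s u
    have h5 : 0 ≤ ∑ a, h s (X a u) := Finset.sum_nonneg fun a _ => S.nonneg s _
    have h6 : 0 ≤ ∑ a, K' a := Finset.sum_nonneg fun a _ => hK' a
    rw [S.succ, S.succ]
    calc h s (φ * u) + ∑ a, h s (X a (φ * u))
        ≤ K * h s u + ∑ a, (K * h s (X a u) + K' a * h s u) :=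
          add_le_add (h1 u) (Finset.sum_le_sum fun a _ => h3 a)
      _ = K * h s u + K * (∑ a, h s (X a u)) + (∑ a, K' a) * h s u := by
          rw [Finset.sum_add_distrib, ← Finset.mul_sum, ← Finset.sum_mul]
          ring
      _ ≤ _ := by nlinarith [mul_nonneg h6 h5]

/-- the Casimir operator is of second order -/
theorem Sc.cas_le (a : Fin n → ι) (b : Fin n → Fin n → ι) (ha : ∀ i, C.H i = X (a i))
    (hb : ∀ i j, C.V i j = X (b i j)) (s : ℕ) :
    ∃ K : ℝ, 0 ≤ K ∧ ∀ u, h s (C.cas u) ≤ K * h (s + 2) u := by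
  choose K hK h1 using fun q : Fin n × Fin n × Fin n × Fin n =>
    S.mul s (C.R q.1 q.2.1 q.2.2.1 q.2.2.2)
  refine ⟨n + 1 / 4 * ∑ i, ∑ j, ∑ k, ∑ l, K (i, j, k, l), by
    have : 0 ≤ ∑ i, ∑ j, ∑ k, ∑ l, K (i, j, k, l) :=
      Finset.sum_nonneg fun i _ => Finset.sum_nonneg fun j _ => Finset.sum_nonneg fun k _ =>
        Finset.sum_nonneg fun l _ => hK _
    positivity, fun u => ?_⟩
  have h2 : h s (C.lap u) ≤ n * h (s + 2) u := by
    unfold FrCalc.lap
    refine (S.sum_le s _ _).trans ?_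
    have h3 : ∀ i : Fin n, h s (C.H i (C.H i u)) ≤ h (s + 2) u := by
      intro i
      rw [ha i]
      exact (S.X_le s _ _).trans (S.X_le (s + 1) _ _)
    refine (Finset.sum_le_sum fun i _ => h3 i).trans ?_
    simp
  have h4 : h s (C.curv u) ≤ (∑ i, ∑ j, ∑ k, ∑ l, K (i, j, k, l)) * h (s + 2) u := by
    unfold FrCalc.curv
    simp only [Finset.sum_mul]
    refine (S.sum_le s _ _).trans (Finset.sum_le_sum fun i _ => ?_)
    refine (S.sum_le s _ _).trans (Finset.sum_le_sum fun j _ => ?_)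
    refine (S.sum_le s _ _).trans (Finset.sum_le_sum fun k _ => ?_)
    refine (S.sum_le s _ _).trans (Finset.sum_le_sum fun l _ => ?_)
    refine (h1 (i, j, k, l) _).trans (mul_le_mul_of_nonneg_left ?_ (hK _))
    rw [hb i j, hb k l]
    exact (S.X_le s _ _).trans (S.X_le (s + 1) _ _)
  unfold FrCalc.cas
  rw [sub_eq_add_neg, ← neg_smul]
  refine (S.add s _ _).trans ?_
  rw [S.smul, abs_neg, abs_of_pos (by norm_num : (0 : ℝ) < 1 / 4), add_mul, mul_assoc]
  exact add_le_add h2 (mul_le_mul_of_nonneg_left h4 (by norm_num))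

/-- **the norms of a system** -/
theorem Sc.nm (a : Fin n → ι) (b : Fin n → Fin n → ι) (ha : ∀ i, C.H i = X (a i))
    (hb : ∀ i j, C.V i j = X (b i j)) {cn : A → ℝ} {s₀ : ℕ}
    (cn_add : ∀ u v, cn (u + v) ≤ cn u + cn v) (cn_smul : ∀ (t : ℝ) u, cn (t • u) = |t| * cn u)
    (cn_sob : ∃ K : ℝ, 0 ≤ K ∧ ∀ u, cn u ≤ K * h s₀ u) : Nm C I h cn s₀ where
  h_add := S.add
  h_smul := S.smul
  h_nonneg := S.nonneg
  h_mono := S.mono
  h_zero := S.zero
  h_H s i u := by
    rw [ha i]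
    exact S.X_le s _ _
  h_cas := S.cas_le a b ha hb
  cn_add := cn_add
  cn_smul := cn_smul
  cn_sob := cn_sob

end

end Vale.Agent.P207.H824
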