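import Vale.Agent.P207.H824.PosA

/-!
# P207 / H824: assembly of the coercivity
-/

set_option linter.unusedSectionVars false
set_option linter.unusedVariables false

noncomputable section

namespace Vale.Agent.P207.H824

open Finset H442 H442.FrCalc H571

variable {n : ℕ} {A : Type*} [CommRing A] [Algebra ℝ A] {C : FrCalc n A} {I : A →ₗ[ℝ] ℝ}
variable {o : Fin n} {TT : Submodule ℝ (Fin n → Fin n → A)} {VV YY : Submodule ℝ (Fin n → A)}
variable {h : ℕ → A → ℝ} {cn : A → ℝ} {s₀ : ℕ}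

/-- the second variation of a finite sum of eigen pairs with a tail, eigenvalues `-l` -/
theorem Qf_sum_tail' (hPar : C.Par) (hI : C.IsInt I) (o : Fin n) (F : Finset ℝ)
    (k : ℝ → Fin n → Fin n → A) (y : ℝ → Fin n → A) (t : Fin n → Fin n → A)
    (hk : ∀ l ∈ F, ∀ i j, k l i j ∈ E0 C (-l)) (hy : ∀ l ∈ F, ∀ i, y l i ∈ E0 C (-l))
    (ht : ∀ l ∈ F, ∀ i j, Orth C I (-l) (t i j)) :
    Qf C I o (∑ l ∈ F, k l + t) (∑ l ∈ F, y l) = ∑ l ∈ F, Qf C I o (k l) (y l) + Qf C I o t 0 := by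
  have h1 : Qf C I o (∑ l ∈ F, k l + t) (∑ l ∈ F, y l) =
      Qf C I o (∑ l ∈ F, k l) (∑ l ∈ F, y l) + 2 * Bf C I o (∑ l ∈ F, k l) (∑ l ∈ F, y l) t 0
        + Qf C I o t 0 := by
    have h2 := Qf_add (C := C) (I := I) o (∑ l ∈ F, k l) t (∑ l ∈ F, y l) 0
    rw [← h2]
    congr 1
    funext i
    simp
  have h3 : Bf C I o (∑ l ∈ F, k l) (∑ l ∈ F, y l) t 0 = 0 := by
    rw [Bf_sum_left]
    exact Finset.sum_eq_zero fun l hl => Bf_tail hPar hI o (hk l hl) (hy l hl) (ht l hl)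
  have h4 : Qf C I o (∑ l ∈ F, k l) (∑ l ∈ F, y l) = ∑ l ∈ F, Qf C I o (k l) (y l) := by
    rw [Qf_eq, Bf_sum_left]
    refine Finset.sum_congr rfl fun l hl => ?_
    rw [Bf_sum_right, Qf_eq, Finset.sum_eq_single_of_mem l hl]
    intro m hm hne
    exact Bf_orth hPar hI (fun h => hne (neg_injective h).symm) o (hk l hl) (hy l hl) (hk m hm)
      (hy m hm)
  rw [h1, h3, h4]
  ring

/-! ### Bessel for tensors -/

theorem parseval2 (hI : C.IsInt I) (F : Finset ℝ) (k : ℝ → Fin n → Fin n → A)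
    (t : Fin n → Fin n → A) (hk : ∀ l ∈ F, ∀ i j, k l i j ∈ E0 C (-l))
    (ht : ∀ l ∈ F, ∀ i j, Orth C I (-l) (t i j)) :
    B2 I (∑ l ∈ F, k l + t) (∑ l ∈ F, k l + t) = ∑ l ∈ F, B2 I (k l) (k l) + B2 I t t := by
  have h1 : ∀ i j, I ((∑ l ∈ F, k l + t) i j * (∑ l ∈ F, k l + t) i j) =
      ∑ l ∈ F, I (k l i j * k l i j) + I (t i j * t i j) := by
    intro i j
    have h2 : (∑ l ∈ F, k l + t) i j = ∑ l ∈ F, k l i j + t i j := by
      simp only [Pi.add_apply, Finset.sum_apply]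
    rw [h2]
    exact parseval hI F (fun l => k l i j) (t i j) (fun l hl => hk l hl i j) fun l hl => ht l hl i j
  simp only [B2_apply, h1, Finset.sum_add_distrib]
  congr 1
  calc ∑ i, ∑ j, ∑ l ∈ F, I (k l i j * k l i j)
      = ∑ i, ∑ l ∈ F, ∑ j, I (k l i j * k l i j) :=
        Finset.sum_congr rfl fun i _ => Finset.sum_comm
    _ = _ := Finset.sum_comm

theorem parseval1_le (hI : C.IsInt I) (hpos : ∀ f : A, 0 ≤ I (f * f)) (F : Finset ℝ)
    (w : ℝ → Fin n → A) (t : Fin n → A) (hw : ∀ l ∈ F, ∀ i, w l i ∈ E0 C (-l))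
    (ht : ∀ l ∈ F, ∀ i, Orth C I (-l) (t i)) :
    ∑ l ∈ F, B1 I (w l) (w l) ≤ B1 I (∑ l ∈ F, w l + t) (∑ l ∈ F, w l + t) := by
  have h1 : ∀ i, I ((∑ l ∈ F, w l + t) i * (∑ l ∈ F, w l + t) i) =
      ∑ l ∈ F, I (w l i * w l i) + I (t i * t i) := by
    intro i
    have h2 : (∑ l ∈ F, w l + t) i = ∑ l ∈ F, w l i + t i := by
      simp only [Pi.add_apply, Finset.sum_apply]
    rw [h2]
    exact parseval hI F (fun l => w l i) (t i) (fun l hl => hw l hl i) fun l hl => ht l hl i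
  simp only [B1_apply, h1, Finset.sum_add_distrib]
  rw [Finset.sum_comm]
  have h2 : 0 ≤ ∑ i, I (t i * t i) := Finset.sum_nonneg fun i _ => hpos _
  linarith

theorem bessel_hT (N : Nm C I h cn s₀) (hI : C.IsInt I) (m : ℕ) :
    ∃ K : ℝ, 0 ≤ K ∧ ∀ (F : Finset ℝ) (k : ℝ → Fin n → Fin n → A) (t : Fin n → Fin n → A),
      (∀ l ∈ F, ∀ i j, k l i j ∈ E0 C (-l)) → (∀ l ∈ F, ∀ i j, Orth C I (-l) (t i j)) →
      ∑ l ∈ F, (1 + l ^ 2) ^ m * B2 I (k l) (k l) ≤
        K * hT h (2 * m) (∑ l ∈ F, k l + t) ^ 2 := by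
  obtain ⟨K, hK, h1⟩ := N.h_cas_pow m 0
  refine ⟨2 ^ m * (1 + K ^ 2), by positivity, fun F k t hk ht => ?_⟩
  set u : Fin n → Fin n → A := ∑ l ∈ F, k l + t with hu
  have hpw : ∀ l : ℝ, (1 + l ^ 2) ^ m ≤ 2 ^ m * (1 + (l ^ 2) ^ m) := by
    intro l
    have h2 := add_pow_le (zero_le_one) (sq_nonneg l) m
    have h3 : (2 : ℝ) ^ (m - 1) ≤ 2 ^ m := pow_le_pow_right₀ one_le_two (Nat.sub_le m 1)
    rw [one_pow] at h2
    exact h2.trans (mul_le_mul_of_nonneg_right h3 (by positivity))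
  have hij : ∀ i j, ∑ l ∈ F, (1 + l ^ 2) ^ m * I (k l i j * k l i j) ≤
      2 ^ m * (1 + K ^ 2) * h (2 * m) (u i j) ^ 2 := by
    intro i j
    have e0 : u i j = ∑ l ∈ F, k l i j + t i j := by
      rw [hu]
      simp only [Pi.add_apply, Finset.sum_apply]
    have b0 := bessel hI N.pos 0 F (fun l => k l i j) (t i j) (fun l hl => hk l hl i j)
      fun l hl => ht l hl i j
    have b1 := bessel hI N.pos m F (fun l => k l i j) (t i j) (fun l hl => hk l hl i j)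
      fun l hl => ht l hl i j
    rw [← e0] at b0 b1
    simp only [pow_zero, one_mul, Module.End.one_apply] at b0
    rw [← N.h_zero] at b0 b1
    have b2 : h 0 (u i j) ^ 2 ≤ h (2 * m) (u i j) ^ 2 := by
      have := N.h_mono (Nat.zero_le (2 * m)) (u i j)
      have := N.h_nonneg 0 (u i j)
      gcongr
    have b3 : h 0 ((C.casL ^ m) (u i j)) ^ 2 ≤ K ^ 2 * h (2 * m) (u i j) ^ 2 := by
      have h5 := h1 (u i j)
      rw [zero_add] at h5
      have := N.h_nonneg 0 ((C.casL ^ m) (u i j))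
      rw [← mul_pow]
      gcongr
    calc ∑ l ∈ F, (1 + l ^ 2) ^ m * I (k l i j * k l i j)
        ≤ ∑ l ∈ F, 2 ^ m * (1 + (l ^ 2) ^ m) * I (k l i j * k l i j) :=
          Finset.sum_le_sum fun l _ => mul_le_mul_of_nonneg_right (hpw l) (N.pos _)
      _ = 2 ^ m * (∑ l ∈ F, I (k l i j * k l i j)
          + ∑ l ∈ F, (l ^ 2) ^ m * I (k l i j * k l i j)) := by
          rw [← Finset.sum_add_distrib, Finset.mul_sum]
          exact Finset.sum_congr rfl fun l _ => by ring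
      _ ≤ 2 ^ m * (h (2 * m) (u i j) ^ 2 + K ^ 2 * h (2 * m) (u i j) ^ 2) := by
          gcongr
          · exact b0.trans b2
          · exact b1.trans b3
      _ = _ := by ring
  have h6 : ∑ l ∈ F, (1 + l ^ 2) ^ m * B2 I (k l) (k l) =
      ∑ i, ∑ j, ∑ l ∈ F, (1 + l ^ 2) ^ m * I (k l i j * k l i j) := by
    simp only [B2_apply, Finset.mul_sum]
    calc ∑ l ∈ F, ∑ i, ∑ j, (1 + l ^ 2) ^ m * I (k l i j * k l i j)
        = ∑ i, ∑ l ∈ F, ∑ j, (1 + l ^ 2) ^ m * I (k l i j * k l i j) := Finset.sum_comm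
      _ = _ := Finset.sum_congr rfl fun i _ => Finset.sum_comm
  rw [h6]
  calc ∑ i, ∑ j, ∑ l ∈ F, (1 + l ^ 2) ^ m * I (k l i j * k l i j)
      ≤ ∑ i, ∑ j, 2 ^ m * (1 + K ^ 2) * h (2 * m) (u i j) ^ 2 :=
        Finset.sum_le_sum fun i _ => Finset.sum_le_sum fun j _ => hij i j
    _ = 2 ^ m * (1 + K ^ 2) * ∑ i, ∑ j, h (2 * m) (u i j) ^ 2 := by
        simp only [Finset.mul_sum]
    _ ≤ 2 ^ m * (1 + K ^ 2) * hT h (2 * m) u ^ 2 := by
        refine mul_le_mul_of_nonneg_left ?_ (by positivity)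
        refine le_trans (Finset.sum_le_sum fun i _ =>
          sum_sq_le _ fun j => N.h_nonneg (2 * m) (u i j)) ?_
        exact sum_sq_le (fun i => ∑ j, h (2 * m) (u i j)) fun i =>
          Finset.sum_nonneg fun j _ => N.h_nonneg _ _

/-! ### norms of the fields -/

theorem cV_add (N : Nm C I h cn s₀) (y y' : Fin n → A) : cV cn (y + y') ≤ cV cn y + cV cn y' := by
  unfold cV
  rw [← Finset.sum_add_distrib]
  exact Finset.sum_le_sum fun i _ => N.cn_add _ _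

theorem cV_sum (N : Nm C I h cn s₀) {κ : Type*} (F : Finset κ) (y : κ → Fin n → A) :
    cV cn (∑ l ∈ F, y l) ≤ ∑ l ∈ F, cV cn (y l) := by
  unfold cV
  rw [Finset.sum_comm]
  refine Finset.sum_le_sum fun i _ => ?_
  rw [Finset.sum_apply]
  exact N.cn_sum F _

theorem h_neg (N : Nm C I h cn s₀) (s : ℕ) (u : A) : h s (-u) = h s u := by
  have h1 := N.h_smul s (-1) u
  rw [neg_smul, one_smul] at h1
  rw [h1]
  simp

/-- the Sobolev bound of the gauge field -/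
theorem cV_pn (N : Nm C I h cn s₀) {s : ℕ} {K : ℝ} (hK : 0 ≤ K) (hs : ∀ u, cn u ≤ K * h s u)
    (w : Fin n → A) : cV cn (pn o w) ≤ K * hV h s w := by
  unfold cV hV
  rw [Finset.mul_sum]
  refine Finset.sum_le_sum fun i _ => ?_
  refine (hs _).trans (mul_le_mul_of_nonneg_left ?_ hK)
  unfold pn
  split_ifs
  · rw [N.h_z]
    exact N.h_nonneg _ _
  · rw [h_neg N]

/-- the Sobolev bound of the horizontal gradient -/
theorem cV_hg (N : Nm C I h cn s₀) {s : ℕ} {K : ℝ} (hK : 0 ≤ K) (hs : ∀ u, cn u ≤ K * h s u)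
    (z : ℝ) (f : A) : cV cn (hg C o z f) ≤ n * (K * (|z| * h (s + 1) f)) := by
  unfold cV
  have h1 : ∀ i : Fin n, cn (hg C o z f i) ≤ K * (|z| * h (s + 1) f) := by
    intro i
    refine (hs _).trans (mul_le_mul_of_nonneg_left ?_ hK)
    unfold hg
    split_ifs
    · rw [N.h_z]
      exact mul_nonneg (abs_nonneg _) (N.h_nonneg _ _)
    · rw [N.h_smul]
      exact mul_le_mul_of_nonneg_left (N.h_H s i f) (abs_nonneg _)
  refine (Finset.sum_le_sum fun i _ => h1 i).trans ?_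
  simp

theorem pn_sum {κ : Type*} (F : Finset κ) (w : κ → Fin n → A) :
    ∑ l ∈ F, pn o (w l) = pn o (∑ l ∈ F, w l) := by
  funext i
  rw [Finset.sum_apply]
  unfold pn
  split_ifs
  · simp
  · rw [Finset.sum_neg_distrib, Finset.sum_apply]

theorem hg_sum {κ : Type*} (F : Finset κ) (z : ℝ) (b : κ → ℝ) (f : κ → A) :
    ∑ l ∈ F, hg C o (z * b l) (f l) = hg C o z (∑ l ∈ F, b l • f l) := by
  funext i
  rw [Finset.sum_apply]
  unfold hg
  split_ifs
  · simp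
  · rw [map_sum, Finset.smul_sum]
    refine Finset.sum_congr rfl fun l _ => ?_
    rw [Derivation.map_smul, smul_smul]

theorem sqrt_le_of_sq {x y : ℝ} (hy : 0 ≤ y) (h : x ≤ y ^ 2) : Real.sqrt x ≤ y := by
  rw [← Real.sqrt_sq hy]
  exact Real.sqrt_le_sqrt h

end Vale.Agent.P207.H824
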