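import Vale.Agent.P207.H824.Pos

/-!
# P207 / H824: the coercivity modulo gauge from the high and the low eigenvalues
-/

set_option linter.unusedSectionVars false
set_option linter.unusedVariables false

noncomputable section

namespace Vale.Agent.P207.H824

open Finset H442 H442.FrCalc H571

variable {n : ℕ} {A : Type*} [CommRing A] [Algebra ℝ A] {C : FrCalc n A} {I : A →ₗ[ℝ] ℝ}
variable {o : Fin n} {TT : Submodule ℝ (Fin n → Fin n → A)} {VV YY : Submodule ℝ (Fin n → A)}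
variable {h : ℕ → A → ℝ} {cn : A → ℝ} {s₀ : ℕ}

/-- the result on one eigenvalue -/
structure Stp (C : FrCalc n A) (I : A →ₗ[ℝ] ℝ) (o : Fin n) (cn : A → ℝ)
    (TT : Submodule ℝ (Fin n → Fin n → A)) (VV YY : Submodule ℝ (Fin n → A))
    (c₀ cs Cw L z : ℝ) (Kl : ℝ → ℝ) (l : ℝ) (k k' : Fin n → Fin n → A) (W y : Fin n → A) :
    Prop where
  W_mem : W ∈ VV ⊓ E1 C (-l)
  y_mem : y ∈ EY C YY (-l)
  k'_mem : k' ∈ TT ⊓ E2 C (-l)
  k'_le : B2 I k' k' ≤ 4 * B2 I k k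
  W_le : B1 I W W ≤ Cw * B2 I k k
  low : l < L → cV cn y ≤ Kl l * Real.sqrt (B2 I k k)
  high : L ≤ l → y = hg C o (-z / l) (k' o o)
  main : cs * (B2 I k k - 2 / c₀ * B1 I (dv2 C k) (dv2 C k)) ≤ Qf C I o k (y + pn o W)

/-- all eigenvalues -/
theorem exists_stp (hPar : C.Par) (hI : C.IsInt I) (N : Nm C I h cn s₀)
    (hdef : ∀ f : A, I (f * f) = 0 → f = 0) (S : Spc C o TT VV YY)
    (An : Ana C I h TT VV) {c₀ : ℝ} (hc₀ : 0 < c₀)
    (hE : ∀ i j, C.Ric i j = if i = j then -(c₀ • (1 : A)) else 0)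
    (P : (Fin n → Fin n → A) →ₗ[ℝ] (Fin n → Fin n → A))
    (hP : ∀ l, SymProj I (TT ⊓ E2 C (-l)) P) {c₁ : ℝ} (hc₁ : 0 < c₁)
    (hco : ∀ W ∈ VV, c₁ * B2 I (Lg C W) (Lg C W) ≤ B2 I (P (Lg C W)) (P (Lg C W)))
    {ch L z : ℝ} (hch : 0 < ch)
    (hhigh : ∀ l, L ≤ l → ∀ k ∈ TT ⊓ E2 C (-l), dv2 C k = 0 →
      ch * B2 I k k ≤ Qf C I o k (hg C o (-z / l) (k o o)))
    (hlow : ∀ l, l < L → ∀ k ∈ TT ⊓ E2 C (-l), k ≠ 0 → dv2 C (P k) = 0 → I (∑ i, k i i) = 0 →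
      ∃ y ∈ EY C YY (-l), 0 < Qf C I o k y) :
    ∃ (cs : ℝ) (Kl : ℝ → ℝ), 0 < cs ∧ cs ≤ c₀ / 2 ∧ (∀ l, 0 ≤ Kl l) ∧
      ∀ l, ∀ k ∈ TT ⊓ E2 C (-l), k ≠ 0 → I (∑ i, k i i) = 0 →
        ∃ k' W y, Stp C I o cn TT VV YY c₀ cs (1 / (2 * c₀) + 1 / (2 * c₀ * c₁)) L z Kl l k k' W y := by
  have hst : ∀ l, ∃ c : ℝ, 0 < c ∧ ∃ K : ℝ, 0 ≤ K ∧ (l < L → ∀ k ∈ TT ⊓ E2 C (-l),
      I (∑ i, k i i) = 0 →
      ∃ W ∈ VV ⊓ E1 C (-l), B1 I W W ≤ 1 / (2 * c₀ * c₁) * B2 I k k ∧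
      B2 I k k - 2 / c₀ * B1 I (dv2 C k) (dv2 C k) ≤ B2 I (k - Lg C W) (k - Lg C W) ∧
      ∃ y ∈ EY C YY (-l), cV cn y ≤ K * Real.sqrt (B2 I k k) ∧
      c * B2 I (k - Lg C W) (k - Lg C W) ≤ Qf C I o k (y + pn o W)) := by
    intro l
    by_cases hl : l < L
    · obtain ⟨c, hc, K, hK, h1⟩ := step_low hPar hI N hdef S An hc₀ hE P l (hP l) hc₁ hco
        (hlow l hl)
      exact ⟨c, hc, K, hK, fun _ => h1⟩
    · exact ⟨1, one_pos, 0, le_refl 0, fun h => absurd h hl⟩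
  choose cl hcl Kl hKl hstep using hst
  set Λ : Finset ℝ := (An.disc L).toFinset with hΛ
  obtain ⟨cs, hcs, hcs1, hcs2, hcs3⟩ : ∃ cs : ℝ, 0 < cs ∧ cs ≤ ch ∧ (∀ l ∈ Λ, cs ≤ cl l) ∧
      cs ≤ c₀ / 2 := by
    rcases Λ.eq_empty_or_nonempty with h0 | h0
    · exact ⟨min ch (c₀ / 2), lt_min hch (half_pos hc₀), min_le_left _ _,
        fun l hl => by rw [h0] at hl; exact absurd hl (Finset.notMem_empty l), min_le_right _ _⟩
    · obtain ⟨l₀, hl₀, hmin⟩ := Λ.exists_min_image cl h0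
      exact ⟨min (min ch (cl l₀)) (c₀ / 2), lt_min (lt_min hch (hcl l₀)) (half_pos hc₀),
        (min_le_left _ _).trans (min_le_left _ _),
        fun l hl => ((min_le_left _ _).trans (min_le_right _ _)).trans (hmin l hl),
        min_le_right _ _⟩
  have hpos := N.pos
  refine ⟨cs, Kl, hcs, hcs3, hKl, fun l k hk hk0 htr => ?_⟩
  have hCw1 : 1 / (2 * c₀) ≤ 1 / (2 * c₀) + 1 / (2 * c₀ * c₁) := by
    have : 0 < 1 / (2 * c₀ * c₁) := by positivity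
    linarith
  have hCw2 : 1 / (2 * c₀ * c₁) ≤ 1 / (2 * c₀) + 1 / (2 * c₀ * c₁) := by
    have : 0 < 1 / (2 * c₀) := by positivity
    linarith
  have hkk : 0 ≤ B2 I k k := B2_nonneg hpos k
  by_cases hl : l < L
  · have hlΛ : l ∈ Λ := by
      rw [hΛ, Set.Finite.mem_toFinset]
      exact ⟨hl, k, hk, hk0⟩
    obtain ⟨W, hW, h1, h2, y, hy, h3, h4⟩ := hstep l hl k hk htr
    refine ⟨0, W, y, ⟨hW, hy, Submodule.zero_mem _, ?_, ?_, fun _ => h3, fun h => absurd hl (not_lt.2 h),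
      ?_⟩⟩
    · rw [map_zero]
      linarith
    · exact h1.trans (mul_le_mul_of_nonneg_right hCw2 hkk)
    · have h5 := B2_nonneg hpos (k - Lg C W)
      calc cs * (B2 I k k - 2 / c₀ * B1 I (dv2 C k) (dv2 C k))
          ≤ cs * B2 I (k - Lg C W) (k - Lg C W) := mul_le_mul_of_nonneg_left h2 hcs.le
        _ ≤ cl l * B2 I (k - Lg C W) (k - Lg C W) :=
          mul_le_mul_of_nonneg_right (hcs2 l hlΛ) h5
        _ ≤ _ := h4
  · rw [not_lt] at hl
    obtain ⟨W, hW, h1, h2, h3, h4⟩ := step_high hPar hI hpos hdef S An hc₀ hE hch (hhigh l hl) hk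
    have hk' : k - Lg C W ∈ TT ⊓ E2 C (-l) :=
      Submodule.sub_mem _ hk ⟨S.Lg W hW.1, Lg_mem hPar hW.2⟩
    refine ⟨k - Lg C W, W, _, ⟨hW, hg_mem_EY hPar S hk' (-z / l), hk', h2, ?_,
      fun h => absurd hl (not_le.2 h), fun _ => rfl, ?_⟩⟩
    · exact h1.trans (mul_le_mul_of_nonneg_right hCw1 hkk)
    · have h5 := B2_nonneg hpos (k - Lg C W)
      calc cs * (B2 I k k - 2 / c₀ * B1 I (dv2 C k) (dv2 C k))
          ≤ cs * B2 I (k - Lg C W) (k - Lg C W) := mul_le_mul_of_nonneg_left h3 hcs.le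
        _ ≤ ch * B2 I (k - Lg C W) (k - Lg C W) :=
          mul_le_mul_of_nonneg_right hcs1 h5
        _ ≤ _ := h4

/-- **the norm of the field** -/
theorem norm_fields (hI : C.IsInt I) (N : Nm C I h cn s₀) (An : Ana C I h TT VV)
    {c₀ cs Cw L z : ℝ} (hL : 1 ≤ L) (hCw : 0 ≤ Cw) {Kl : ℝ → ℝ} (hKl : ∀ l, 0 ≤ Kl l) :
    ∃ K : ℝ, 0 ≤ K ∧ ∀ (F : Finset ℝ) (k k' : ℝ → Fin n → Fin n → A)
      (W y : ℝ → Fin n → A) (t : Fin n → Fin n → A),
      (∀ l ∈ F, k l ∈ TT ⊓ E2 C (-l)) → (∀ l ∈ F, k l ≠ 0) →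
      (∀ l ∈ F, ∀ i j, Orth C I (-l) (t i j)) →
      (∀ l ∈ F, Stp C I o cn TT VV YY c₀ cs Cw L z Kl l (k l) (k' l) (W l) (y l)) →
      cV cn (∑ l ∈ F, (y l + pn o (W l))) ≤
        K * hT h (2 * s₀ + 2 * (s₀ + 1)) (∑ l ∈ F, k l + t) := by
  obtain ⟨K₀, hK₀, hs⟩ := N.cn_sob
  obtain ⟨K₁, hK₁, hell1⟩ := An.ell1 s₀
  obtain ⟨K₂, hK₂, hell2⟩ := An.ell2 (s₀ + 1)
  obtain ⟨B₁, hB₁, hbes1⟩ := bessel_hT N hI s₀ (n := n)
  obtain ⟨B₂, hB₂, hbes2⟩ := bessel_hT N hI (s₀ + 1) (n := n)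
  set Λ : Finset ℝ := (An.disc L).toFinset with hΛ
  set KΛ : ℝ := ∑ l ∈ Λ, Kl l with hKΛ
  have hKΛ0 : 0 ≤ KΛ := Finset.sum_nonneg fun l _ => hKl l
  set Kh : ℝ := n * (K₀ * (|(-z)| * (K₂ * Real.sqrt (4 * B₂)))) with hKh
  set Kw : ℝ := K₀ * (n * (K₁ * Real.sqrt (Cw * B₁))) with hKw
  have hKh0 : 0 ≤ Kh := by positivity
  have hKw0 : 0 ≤ Kw := by positivity
  refine ⟨KΛ + Kh + Kw, by positivity, fun F k k' W y t hk hk0 ht hst => ?_⟩
  set u : Fin n → Fin n → A := ∑ l ∈ F, k l + t with hu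
  set R : ℝ := hT h (2 * s₀ + 2 * (s₀ + 1)) u with hR
  have hR0 : 0 ≤ R := hT_nonneg N _ _
  have hkE : ∀ l ∈ F, ∀ i j, k l i j ∈ E0 C (-l) := fun l hl i j => (hk l hl).2.2.2 i j
  have hpos := N.pos
  -- the three sums
  have b0 : ∀ l ∈ F, B2 I (k l) (k l) ≤ R ^ 2 := by
    intro l hl
    have h1 := parseval2 hI F k t hkE ht
    have h2 : B2 I (k l) (k l) ≤ ∑ l ∈ F, B2 I (k l) (k l) :=
      Finset.single_le_sum (f := fun l => B2 I (k l) (k l)) (fun l _ => B2_nonneg hpos _) hl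
    have h3 := B2_nonneg hpos t
    have h4 := B2_le_hT N (2 * s₀ + 2 * (s₀ + 1)) u
    rw [← hu] at h1
    linarith
  have b1 : ∑ l ∈ F, (1 + l ^ 2) ^ s₀ * B2 I (k l) (k l) ≤ B₁ * R ^ 2 := by
    refine (hbes1 F k t hkE ht).trans (mul_le_mul_of_nonneg_left ?_ hB₁)
    have h1 := hT_mono N (Nat.le_add_right (2 * s₀) (2 * (s₀ + 1))) u
    have h2 := hT_nonneg N (2 * s₀) u
    gcongr
  have b2 : ∑ l ∈ F, (1 + l ^ 2) ^ (s₀ + 1) * B2 I (k l) (k l) ≤ B₂ * R ^ 2 := by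
    refine (hbes2 F k t hkE ht).trans (mul_le_mul_of_nonneg_left ?_ hB₂)
    have h1 := hT_mono N (Nat.le_add_left (2 * (s₀ + 1)) (2 * s₀)) u
    have h2 := hT_nonneg N (2 * (s₀ + 1)) u
    gcongr
  -- splitting
  set Fl : Finset ℝ := F.filter (fun l => l < L) with hFl
  set Fh : Finset ℝ := F.filter (fun l => ¬ l < L) with hFh
  have hsplit : ∑ l ∈ F, (y l + pn o (W l)) = ∑ l ∈ Fl, y l + ∑ l ∈ Fh, y l
      + ∑ l ∈ F, pn o (W l) := by
    rw [Finset.sum_add_distrib, Finset.sum_filter_add_sum_filter_not]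
  -- low part
  have c1 : cV cn (∑ l ∈ Fl, y l) ≤ KΛ * R := by
    refine (cV_sum N _ _).trans ?_
    have h1 : ∀ l ∈ Fl, cV cn (y l) ≤ Kl l * R := by
      intro l hl
      obtain ⟨hlF, hlL⟩ := Finset.mem_filter.1 hl
      refine ((hst l hlF).low hlL).trans (mul_le_mul_of_nonneg_left ?_ (hKl l))
      exact sqrt_le_of_sq hR0 (b0 l hlF)
    refine (Finset.sum_le_sum h1).trans ?_
    rw [← Finset.sum_mul]
    refine mul_le_mul_of_nonneg_right ?_ hR0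
    refine Finset.sum_le_sum_of_subset_of_nonneg ?_ fun l _ _ => hKl l
    intro l hl
    obtain ⟨hlF, hlL⟩ := Finset.mem_filter.1 hl
    rw [hΛ, Set.Finite.mem_toFinset]
    exact ⟨hlL, k l, hk l hlF, hk0 l hlF⟩
  -- high part
  have c2 : cV cn (∑ l ∈ Fh, y l) ≤ Kh * R := by
    have h1 : ∑ l ∈ Fh, y l = hg C o (-z) ((∑ l ∈ Fh, l⁻¹ • k' l) o o) := by
      have h2 : (∑ l ∈ Fh, l⁻¹ • k' l) o o = ∑ l ∈ Fh, l⁻¹ • k' l o o := by
        simp only [Finset.sum_apply, Pi.smul_apply]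
      rw [h2, ← hg_sum]
      refine Finset.sum_congr rfl fun l hl => ?_
      obtain ⟨hlF, hlL⟩ := Finset.mem_filter.1 hl
      rw [(hst l hlF).high (not_lt.1 hlL), div_eq_mul_inv]
    rw [h1]
    refine (cV_hg N hK₀ hs _ _).trans ?_
    have h3 := hell2 Fh (fun l => l⁻¹ • k' l) (fun l hl =>
      Submodule.smul_mem _ _ (hst l (Finset.mem_filter.1 hl).1).k'_mem) o o
    have h4 : ∑ l ∈ Fh, (1 + l ^ 2) ^ (s₀ + 1) * B2 I (l⁻¹ • k' l) (l⁻¹ • k' l) ≤ 4 * B₂ * R ^ 2 := by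
      calc ∑ l ∈ Fh, (1 + l ^ 2) ^ (s₀ + 1) * B2 I (l⁻¹ • k' l) (l⁻¹ • k' l)
          ≤ ∑ l ∈ Fh, 4 * ((1 + l ^ 2) ^ (s₀ + 1) * B2 I (k l) (k l)) := by
            refine Finset.sum_le_sum fun l hl => ?_
            obtain ⟨hlF, hlL⟩ := Finset.mem_filter.1 hl
            have h5 := (hst l hlF).k'_le
            have h6 : B2 I (l⁻¹ • k' l) (l⁻¹ • k' l) = (l⁻¹) ^ 2 * B2 I (k' l) (k' l) := by
              simp only [map_smul, LinearMap.smul_apply, smul_eq_mul]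
              ring
            have h7 : l⁻¹ ≤ 1 := inv_le_one_of_one_le₀ (hL.trans (not_lt.1 hlL))
            have h8 : 0 ≤ l⁻¹ := inv_nonneg.2 (zero_le_one.trans (hL.trans (not_lt.1 hlL)))
            have h9 : (l⁻¹) ^ 2 ≤ 1 := pow_le_one₀ h8 h7
            have h10 := B2_nonneg hpos (k' l)
            have h11 : B2 I (l⁻¹ • k' l) (l⁻¹ • k' l) ≤ 4 * B2 I (k l) (k l) := by
              rw [h6]
              nlinarith
            have h12 : 0 ≤ (1 + l ^ 2) ^ (s₀ + 1) := by positivity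
            nlinarith [mul_le_mul_of_nonneg_left h11 h12]
        _ ≤ ∑ l ∈ F, 4 * ((1 + l ^ 2) ^ (s₀ + 1) * B2 I (k l) (k l)) := by
            refine Finset.sum_le_sum_of_subset_of_nonneg (Finset.filter_subset _ _) fun l _ _ => ?_
            have := B2_nonneg hpos (k l)
            positivity
        _ ≤ 4 * B₂ * R ^ 2 := by
            rw [← Finset.mul_sum]
            linarith
    have h5 : Real.sqrt (∑ l ∈ Fh, (1 + l ^ 2) ^ (s₀ + 1) * B2 I (l⁻¹ • k' l) (l⁻¹ • k' l)) ≤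
        Real.sqrt (4 * B₂) * R := by
      rw [← Real.sqrt_sq hR0, ← Real.sqrt_mul (by positivity)]
      exact Real.sqrt_le_sqrt h4
    have h6 : h (s₀ + 1) ((∑ l ∈ Fh, l⁻¹ • k' l) o o) ≤ K₂ * (Real.sqrt (4 * B₂) * R) :=
      h3.trans (mul_le_mul_of_nonneg_left h5 hK₂)
    calc n * (K₀ * (|(-z)| * h (s₀ + 1) ((∑ l ∈ Fh, l⁻¹ • k' l) o o)))
        ≤ n * (K₀ * (|(-z)| * (K₂ * (Real.sqrt (4 * B₂) * R)))) := by gcongr
      _ = Kh * R := by rw [hKh]; ring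
  -- gauge part
  have c3 : cV cn (∑ l ∈ F, pn o (W l)) ≤ Kw * R := by
    rw [pn_sum]
    refine (cV_pn N hK₀ hs _).trans ?_
    have h4 : ∑ l ∈ F, (1 + l ^ 2) ^ s₀ * B1 I (W l) (W l) ≤ Cw * B₁ * R ^ 2 := by
      calc ∑ l ∈ F, (1 + l ^ 2) ^ s₀ * B1 I (W l) (W l)
          ≤ ∑ l ∈ F, Cw * ((1 + l ^ 2) ^ s₀ * B2 I (k l) (k l)) := by
            refine Finset.sum_le_sum fun l hl => ?_
            have h5 := (hst l hl).W_le
            have h12 : 0 ≤ (1 + l ^ 2) ^ s₀ := by positivity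
            nlinarith [mul_le_mul_of_nonneg_left h5 h12]
        _ ≤ Cw * B₁ * R ^ 2 := by
            rw [← Finset.mul_sum, mul_assoc]
            exact mul_le_mul_of_nonneg_left b1 hCw
    have h5 : Real.sqrt (∑ l ∈ F, (1 + l ^ 2) ^ s₀ * B1 I (W l) (W l)) ≤
        Real.sqrt (Cw * B₁) * R := by
      rw [← Real.sqrt_sq hR0, ← Real.sqrt_mul (by positivity)]
      exact Real.sqrt_le_sqrt h4
    have h6 : ∀ i, h s₀ ((∑ l ∈ F, W l) i) ≤ K₁ * (Real.sqrt (Cw * B₁) * R) := fun i =>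
      (hell1 F W (fun l hl => (hst l hl).W_mem) i).trans (mul_le_mul_of_nonneg_left h5 hK₁)
    have h7 : hV h s₀ (∑ l ∈ F, W l) ≤ n * (K₁ * (Real.sqrt (Cw * B₁) * R)) := by
      refine (Finset.sum_le_sum fun i _ => h6 i).trans ?_
      simp
    calc K₀ * hV h s₀ (∑ l ∈ F, W l) ≤ K₀ * (n * (K₁ * (Real.sqrt (Cw * B₁) * R))) := by gcongr
      _ = Kw * R := by rw [hKw]; ring
  rw [hsplit]
  refine (cV_add N _ _).trans ?_
  have h8 := cV_add N (∑ l ∈ Fl, y l) (∑ l ∈ Fh, y l)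
  have h9 : (KΛ + Kh + Kw) * R = KΛ * R + Kh * R + Kw * R := by ring
  rw [h9]
  linarith

/-- **the coercivity for tensors with mean trace zero** -/
theorem pos_traceless (hPar : C.Par) (hI : C.IsInt I) (N : Nm C I h cn s₀)
    (hdef : ∀ f : A, I (f * f) = 0 → f = 0) (S : Spc C o TT VV YY)
    (An : Ana C I h TT VV) {c₀ : ℝ} (hc₀ : 0 < c₀)
    (hE : ∀ i j, C.Ric i j = if i = j then -(c₀ • (1 : A)) else 0)
    (P : (Fin n → Fin n → A) →ₗ[ℝ] (Fin n → Fin n → A))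
    (hP : ∀ l, SymProj I (TT ⊓ E2 C (-l)) P) {c₁ : ℝ} (hc₁ : 0 < c₁)
    (hco : ∀ W ∈ VV, c₁ * B2 I (Lg C W) (Lg C W) ≤ B2 I (P (Lg C W)) (P (Lg C W)))
    {ch L z : ℝ} (hch : 0 < ch) (hL : 1 ≤ L)
    (hhigh : ∀ l, L ≤ l → ∀ k ∈ TT ⊓ E2 C (-l), dv2 C k = 0 →
      ch * B2 I k k ≤ Qf C I o k (hg C o (-z / l) (k o o)))
    (hlow : ∀ l, l < L → ∀ k ∈ TT ⊓ E2 C (-l), k ≠ 0 → dv2 C (P k) = 0 → I (∑ i, k i i) = 0 →
      ∃ y ∈ EY C YY (-l), 0 < Qf C I o k y) :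
    ∃ K : ℝ, 0 < K ∧ ∀ k ∈ TT, I (∑ i, k i i) = 0 →
      ∃ y ∈ YY, cV cn y ≤ K * hT h (2 * s₀ + 2 * (s₀ + 1)) k ∧
        B2 I k k ≤ K * (Qf C I o k y + hV h (2 * s₀ + 2 * (s₀ + 1)) (dv2 C k) ^ 2) := by
  classical
  obtain ⟨cs, Kl, hcs, hcs3, hKl, hstp⟩ := exists_stp hPar hI N hdef S An hc₀ hE P hP hc₁ hco hch
    hhigh hlow
  set r : ℕ := 2 * s₀ + 2 * (s₀ + 1) with hr
  obtain ⟨K, hK, hnorm⟩ := norm_fields (o := o) (YY := YY) (cs := cs) (z := z) (c₀ := c₀) hI N An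
    hL (Cw := 1 / (2 * c₀) + 1 / (2 * c₀ * c₁)) (by positivity) hKl
  have hpos := N.pos
  refine ⟨K + 2 / cs + 4 / c₀ + 1, by positivity, fun k hk htr => ?_⟩
  have hkk : 0 ≤ B2 I k k := B2_nonneg hpos k
  rcases hkk.eq_or_lt with hz | hkk'
  · refine ⟨0, YY.zero_mem, ?_, ?_⟩
    · have h1 : cV cn (0 : Fin n → A) = 0 := by
        simp [cV, N.cn_z]
      rw [h1]
      have := hT_nonneg N r k
      positivity
    · rw [← hz]
      have h1 := Qf_tail_ge hpos (C := C) o k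
      rw [← hz, mul_zero] at h1
      positivity
  -- the decomposition
  set ε : ℝ := cs / (2 * (cs + 1)) * B2 I k k with hε
  have hε0 : 0 < ε := by positivity
  obtain ⟨F₀, kl, hkl, hort, hte⟩ := An.spec k hk ε hε0
  set F : Finset ℝ := F₀.filter (fun l => kl l ≠ 0) with hF
  have hsumF : ∑ l ∈ F, kl l = ∑ l ∈ F₀, kl l := by
    rw [hF, Finset.sum_filter_ne_zero]
  set t : Fin n → Fin n → A := k - ∑ l ∈ F₀, kl l with ht
  have hkt : ∑ l ∈ F, kl l + t = k := by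
    rw [hsumF, ht, add_sub_cancel]
  have hklF : ∀ l ∈ F, kl l ∈ TT ⊓ E2 C (-l) := fun l hl => hkl l (Finset.mem_filter.1 hl).1
  have hkl0 : ∀ l ∈ F, kl l ≠ 0 := fun l hl => (Finset.mem_filter.1 hl).2
  have hortF : ∀ l ∈ F, ∀ i j, Orth C I (-l) (t i j) := fun l hl =>
    hort l (Finset.mem_filter.1 hl).1
  have hklE : ∀ l ∈ F, ∀ i j, kl l i j ∈ E0 C (-l) := fun l hl i j => (hklF l hl).2.2.2 i j
  -- mean traces
  have hgmE : ∀ i j : Fin n, gm A i j ∈ E0 C 0 := by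
    intro i j
    rw [mem_E0, zero_smul]
    unfold gm
    split_ifs
    · have h1 := (isPar_one (C := C)).cas_mul 1
      have h2 : C.cas (1 : A) = 0 := by
        have hp := (isPar_one (C := C)).curv
        have h3 : C.lap (1 : A) = 0 := by simp [FrCalc.lap]
        unfold FrCalc.cas
        rw [hp, h3, smul_zero, sub_zero]
      exact h2
    · exact cas_zero
  have htrl : ∀ l ∈ F, I (∑ i, kl l i i) = 0 := by
    intro l hl
    by_cases hl0 : l = 0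
    · -- the eigenvalue zero
      have h1 : I (∑ i, k i i) = ∑ m ∈ F, I (∑ i, kl m i i) + I (∑ i, t i i) := by
        rw [← hkt]
        simp only [Pi.add_apply, Finset.sum_apply, Finset.sum_add_distrib, map_add]
        congr 1
        rw [Finset.sum_comm, map_sum]
      have h2 : I (∑ i, t i i) = 0 := by
        rw [map_sum]
        refine Finset.sum_eq_zero fun i _ => ?_
        have h3 := hortF l hl i i (1 : A) (by
          rw [hl0, neg_zero]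
          have h4 := hgmE i i
          rwa [gm, if_pos rfl] at h4)
        rwa [mul_one] at h3
      have h3 : ∀ m ∈ F, m ≠ l → I (∑ i, kl m i i) = 0 := by
        intro m hm hne
        rw [map_sum]
        refine Finset.sum_eq_zero fun i _ => ?_
        have h5 : (1 : A) ∈ E0 C 0 := by
          have h4 := hgmE i i
          rwa [gm, if_pos rfl] at h4
        have h6 := E0_orth hI (lam := -m) (mu := 0)
          (fun h => hne (by rw [hl0]; exact neg_eq_zero.1 h)) (hklE m hm i i) h5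
        rwa [mul_one] at h6
      rw [htr, h2, Finset.sum_eq_single_of_mem l hl h3, add_zero] at h1
      exact h1.symm
    · rw [map_sum]
      refine Finset.sum_eq_zero fun i _ => ?_
      have h5 : (1 : A) ∈ E0 C 0 := by
        have h4 := hgmE i i
        rwa [gm, if_pos rfl] at h4
      have h6 := E0_orth hI (lam := -l) (mu := 0) (neg_ne_zero.2 hl0) (hklE l hl i i) h5
      rwa [mul_one] at h6
  -- the fields
  have hex : ∀ l : ℝ, ∃ (k' : Fin n → Fin n → A) (W y : Fin n → A), l ∈ F →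
      Stp C I o cn TT VV YY c₀ cs (1 / (2 * c₀) + 1 / (2 * c₀ * c₁)) L z Kl l (kl l) k' W y := by
    intro l
    by_cases hl : l ∈ F
    · obtain ⟨k', W, y, h1⟩ := hstp l (kl l) (hklF l hl) (hkl0 l hl) (htrl l hl)
      exact ⟨k', W, y, fun _ => h1⟩
    · exact ⟨0, 0, 0, fun h => absurd h hl⟩
  choose k' W y hst using hex
  have hyE : ∀ l ∈ F, y l + pn o (W l) ∈ EY C YY (-l) := fun l hl =>
    Submodule.add_mem _ (hst l hl).y_mem (pn_mem_EY S (hst l hl).W_mem)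
  refine ⟨∑ l ∈ F, (y l + pn o (W l)), Submodule.sum_mem _ fun l hl => (hyE l hl).1, ?_, ?_⟩
  · have h1 := hnorm F kl k' W y t hklF hkl0 hortF fun l hl => hst l hl
    rw [hkt] at h1
    have h2 := hT_nonneg N r k
    refine h1.trans (mul_le_mul_of_nonneg_right ?_ h2)
    have : 0 < 2 / cs := by positivity
    have : 0 < 4 / c₀ := by positivity
    linarith
  · have h1 : Qf C I o k (∑ l ∈ F, (y l + pn o (W l))) =
        ∑ l ∈ F, Qf C I o (kl l) (y l + pn o (W l)) + Qf C I o t 0 := by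
      rw [← Qf_sum_tail' hPar hI o F kl (fun l => y l + pn o (W l)) t hklE
        (fun l hl i => (hyE l hl).2 i) hortF, hkt]
    have h2 : ∑ l ∈ F, cs * (B2 I (kl l) (kl l) - 2 / c₀ * B1 I (dv2 C (kl l)) (dv2 C (kl l))) ≤
        ∑ l ∈ F, Qf C I o (kl l) (y l + pn o (W l)) :=
      Finset.sum_le_sum fun l hl => (hst l hl).main
    have h3 := Qf_tail_ge hpos (C := C) o t
    have h4 : B2 I k k = ∑ l ∈ F, B2 I (kl l) (kl l) + B2 I t t := by
      rw [← parseval2 hI F kl t hklE hortF, hkt]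
    have h5 : ∑ l ∈ F, B1 I (dv2 C (kl l)) (dv2 C (kl l)) ≤ B1 I (dv2 C k) (dv2 C k) := by
      have h6 := parseval1_le hI hpos F (fun l => dv2 C (kl l)) (dv2 C t)
        (fun l hl j => Submodule.sum_mem _ fun i _ => E0_H hPar (hklE l hl i j) i)
        (fun l hl j => Orth.sum fun i _ => (hortF l hl i j).H hPar hI i)
      have h7 : ∑ l ∈ F, dv2 C (kl l) + dv2 C t = dv2 C k := by
        rw [← hkt, ← dvL_apply (∑ l ∈ F, kl l + t), map_add, map_sum]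
        rfl
      rwa [h7] at h6
    have h6 := B1_le_hV N r (dv2 C k)
    have h7 : B2 I t t ≤ ε := hte
    have h8 : 0 ≤ B2 I t t := B2_nonneg hpos t
    set q : ℝ := Qf C I o k (∑ l ∈ F, (y l + pn o (W l))) with hq
    set b : ℝ := B2 I k k with hb
    set dd : ℝ := hV h r (dv2 C k) ^ 2 with hdd
    have hdd0 : 0 ≤ dd := by positivity
    have h9 : ∑ l ∈ F, cs * (B2 I (kl l) (kl l) - 2 / c₀ * B1 I (dv2 C (kl l)) (dv2 C (kl l))) =
        cs * (∑ l ∈ F, B2 I (kl l) (kl l)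
          - 2 / c₀ * ∑ l ∈ F, B1 I (dv2 C (kl l)) (dv2 C (kl l))) := by
      rw [← Finset.mul_sum, Finset.sum_sub_distrib, ← Finset.mul_sum]
    have h10 : cs * (b - B2 I t t - 2 / c₀ * dd) ≤
        cs * (∑ l ∈ F, B2 I (kl l) (kl l)
          - 2 / c₀ * ∑ l ∈ F, B1 I (dv2 C (kl l)) (dv2 C (kl l))) := by
      refine mul_le_mul_of_nonneg_left ?_ hcs.le
      have h11 : 2 / c₀ * ∑ l ∈ F, B1 I (dv2 C (kl l)) (dv2 C (kl l)) ≤ 2 / c₀ * dd :=
        mul_le_mul_of_nonneg_left (h5.trans h6) (by positivity)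
      linarith
    have h12 : cs * (b - 2 / c₀ * dd) - (cs + 1 / 2) * B2 I t t ≤ q := by
      rw [h1]
      rw [h9] at h2
      linarith
    have h13 : (cs + 1 / 2) * B2 I t t ≤ cs / 2 * b := by
      have h14 : (cs + 1 / 2) * B2 I t t ≤ (cs + 1) * ε := by nlinarith
      have h15 : (cs + 1) * ε = cs / 2 * b := by
        rw [hε]
        field_simp
      linarith
    have h16 : cs / 2 * b ≤ q + dd := by
      have h18 : cs * (b - 2 / c₀ * dd) = cs * b - cs * (2 / c₀) * dd := by ring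
      have h19 : cs * (2 / c₀) ≤ 1 := by
        have h20 : cs * (2 / c₀) ≤ c₀ / 2 * (2 / c₀) :=
          mul_le_mul_of_nonneg_right hcs3 (by positivity)
        have h21 : c₀ / 2 * (2 / c₀) = 1 := by field_simp
        linarith
      have h22 : cs * (2 / c₀) * dd ≤ 1 * dd := mul_le_mul_of_nonneg_right h19 hdd0
      linarith
    have h17 : 0 ≤ q + dd := le_trans (by positivity) h16
    have h23 : b = 2 / cs * (cs / 2 * b) := by field_simp
    calc b = 2 / cs * (cs / 2 * b) := h23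
      _ ≤ 2 / cs * (q + dd) := mul_le_mul_of_nonneg_left h16 (by positivity)
      _ ≤ (K + 2 / cs + 4 / c₀ + 1) * (q + dd) := by
        refine mul_le_mul_of_nonneg_right ?_ h17
        have : 0 < 4 / c₀ := by positivity
        linarith

end Vale.Agent.P207.H824
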