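import Vale.Agent.P207.H824.PosB

/-!
# P207 / H824: the coercivity modulo gauge, general tensors
-/

set_option linter.unusedSectionVars false
set_option linter.unusedVariables false

noncomputable section

namespace Vale.Agent.P207.H824

open Finset H442 H442.FrCalc H571

variable {n : ℕ} {A : Type*} [CommRing A] [Algebra ℝ A] {C : FrCalc n A} {I : A →ₗ[ℝ] ℝ}
variable {o : Fin n} {TT : Submodule ℝ (Fin n → Fin n → A)} {VV YY : Submodule ℝ (Fin n → A)}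
variable {h : ℕ → A → ℝ} {cn : A → ℝ} {s₀ : ℕ}

/-- Cauchy–Schwarz against the constants -/
theorem I_sq_le (hpos : ∀ f : A, 0 ≤ I (f * f)) (hI1 : 0 < I 1) (u : A) :
    I u ^ 2 ≤ I (u * u) * I 1 := by
  set t : ℝ := I u / I 1 with ht
  have h1 := hpos (u - t • (1 : A))
  simp only [sub_mul, mul_sub, smul_mul_assoc, mul_smul_comm, one_mul, mul_one, map_sub, map_smul,
    smul_eq_mul] at h1
  have h3 : t * I 1 = I u := by rw [ht]; field_simp
  have h4 : 0 ≤ (I (u * u) - 2 * t * I u + t ^ 2 * I 1) * I 1 :=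
    mul_nonneg (by nlinarith [h1]) hI1.le
  have h5 : (I (u * u) - 2 * t * I u + t ^ 2 * I 1) * I 1 =
      I (u * u) * I 1 - 2 * (t * I 1) * I u + (t * I 1) ^ 2 := by ring
  rw [h5, h3] at h4
  nlinarith

theorem abs_I_tr_le (N : Nm C I h cn s₀) (hI1 : 0 < I 1) (s : ℕ) (k : Fin n → Fin n → A) :
    |I (∑ i, k i i)| ≤ Real.sqrt (I 1) * hT h s k := by
  rw [map_sum]
  refine (Finset.abs_sum_le_sum_abs _ _).trans ?_
  unfold hT
  rw [Finset.mul_sum]
  refine Finset.sum_le_sum fun i _ => ?_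
  have h1 : |I (k i i)| ≤ Real.sqrt (I 1) * h 0 (k i i) := by
    have h2 := I_sq_le N.pos hI1 (k i i)
    rw [← N.h_zero] at h2
    have h3 := N.h_nonneg 0 (k i i)
    rw [← Real.sqrt_sq_eq_abs]
    calc Real.sqrt (I (k i i) ^ 2) ≤ Real.sqrt (h 0 (k i i) ^ 2 * I 1) := Real.sqrt_le_sqrt h2
      _ = Real.sqrt (I 1) * h 0 (k i i) := by
        rw [Real.sqrt_mul (by positivity), Real.sqrt_sq h3, mul_comm]
  refine h1.trans (mul_le_mul_of_nonneg_left ?_ (Real.sqrt_nonneg _))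
  exact (N.h_mono (Nat.zero_le s) _).trans (Finset.single_le_sum (f := fun j => h s (k i j))
    (fun j _ => N.h_nonneg s _) (Finset.mem_univ i))

/-- **coercivity modulo gauge** from the high and the low eigenvalues -/
theorem pos_gen (hPar : C.Par) (hI : C.IsInt I) (hI1 : 0 < I 1) (N : Nm C I h cn s₀)
    (hdef : ∀ f : A, I (f * f) = 0 → f = 0) (S : Spc C o TT VV YY)
    (An : Ana C I h TT VV) {c₀ : ℝ} (hc₀ : 0 < c₀)
    (hE : ∀ i j, C.Ric i j = if i = j then -(c₀ • (1 : A)) else 0)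
    (P : (Fin n → Fin n → A) →ₗ[ℝ] (Fin n → Fin n → A))
    (hP : ∀ l, SymProj I (TT ⊓ E2 C (-l)) P) {c₁ : ℝ} (hc₁ : 0 < c₁)
    (hco : ∀ W ∈ VV, c₁ * B2 I (Lg C W) (Lg C W) ≤ B2 I (P (Lg C W)) (P (Lg C W)))
    {ch L z : ℝ} (hch : 0 < ch) (hL : 1 ≤ L)
    (hhigh : ∀ l, L ≤ l → ∀ k ∈ TT ⊓ E2 C (-l), dv2 C k = 0 →
      ch * B2 I k k ≤ Qf C I o k (hg C o (-z / l) (k o o)))
    (hlow : ∀ l, l < L → ∀ k ∈ TT ⊓ E2 C (-l), k ≠ 0 → dv2 C (P k) = 0 → I (∑ i, k i i) = 0 →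
      ∃ y ∈ EY C YY (-l), 0 < Qf C I o k y) :
    ∃ K : ℝ, 0 < K ∧ ∀ k ∈ TT,
      ∃ y ∈ YY, cV cn y ≤ K * hT h (2 * s₀ + 2 * (s₀ + 1)) k ∧
        B2 I k k ≤ K * (Qf C I o k y + hV h (2 * s₀ + 2 * (s₀ + 1)) (dv2 C k) ^ 2
          + I (∑ i, k i i) ^ 2) := by
  set r : ℕ := 2 * s₀ + 2 * (s₀ + 1) with hr
  obtain ⟨K, hK, h1⟩ := pos_traceless hPar hI N hdef S An hc₀ hE P hP hc₁ hco hch hL
    hhigh hlow
  have hn : 0 < n := Fin.pos o
  have hn' : (1 : ℝ) ≤ n := by exact_mod_cast hn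
  have hnI : 0 < (n : ℝ) * I 1 := by positivity
  set G : ℝ := hT h r (gm (n := n) A) with hG
  have hG0 : 0 ≤ G := hT_nonneg N _ _
  refine ⟨K * (1 + Real.sqrt (I 1) / (n * I 1) * G) + K + 1 / (n * I 1), by positivity,
    fun k hk => ?_⟩
  set τ : ℝ := I (∑ i, k i i) with hτ
  set κ : ℝ := τ / (n * I 1) with hκ
  set k₀ : Fin n → Fin n → A := k - κ • gm A with hk₀
  have hk₀T : k₀ ∈ TT := TT.sub_mem hk (TT.smul_mem _ S.gm)
  have hkk : k = k₀ + κ • gm A := by rw [hk₀, sub_add_cancel]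
  have htr : I (∑ i, k₀ i i) = 0 := by
    have h2 : ∑ i, k₀ i i = ∑ i, k i i - (κ * n) • (1 : A) := by
      simp only [hk₀, Pi.sub_apply, Pi.smul_apply, Finset.sum_sub_distrib]
      congr 1
      rw [← Finset.smul_sum, tr_gm, Algebra.algebraMap_eq_smul_one, smul_smul]
    rw [h2, map_sub, map_smul, smul_eq_mul, ← hτ, hκ]
    field_simp
    ring
  obtain ⟨y, hy, hy1, hy2⟩ := h1 k₀ hk₀T htr
  have hR0 : 0 ≤ hT h r k := hT_nonneg N _ _
  refine ⟨y, hy, ?_, ?_⟩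
  · have h2 : hT h r k₀ ≤ (1 + Real.sqrt (I 1) / (n * I 1) * G) * hT h r k := by
      have h3 : hT h r k₀ ≤ hT h r k + |κ| * G := by
        have h4 := hT_add N r k ((-κ) • gm A)
        rw [hT_smul N, abs_neg] at h4
        have h5 : k₀ = k + (-κ) • gm A := by rw [hk₀, neg_smul, sub_eq_add_neg]
        rw [h5]
        exact h4
      have h6 : |κ| ≤ Real.sqrt (I 1) / (n * I 1) * hT h r k := by
        rw [hκ, abs_div, abs_of_pos hnI, div_mul_eq_mul_div]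
        exact div_le_div_of_nonneg_right (abs_I_tr_le N hI1 r k) hnI.le
      calc hT h r k₀ ≤ hT h r k + |κ| * G := h3
        _ ≤ hT h r k + Real.sqrt (I 1) / (n * I 1) * hT h r k * G := by gcongr
        _ = _ := by ring
    calc cV cn y ≤ K * hT h r k₀ := hy1
      _ ≤ K * ((1 + Real.sqrt (I 1) / (n * I 1) * G) * hT h r k) :=
        mul_le_mul_of_nonneg_left h2 hK.le
      _ ≤ _ := by
        rw [← mul_assoc]
        refine mul_le_mul_of_nonneg_right ?_ hR0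
        have : 0 < 1 / ((n : ℝ) * I 1) := by positivity
        linarith
  · have h2 : B2 I k k = B2 I k₀ k₀ + κ ^ 2 * n * I 1 := by
      have h3 := B2_add_gm (I := I) htr κ
      rwa [← hkk] at h3
    have h3 : Qf C I o k y = Qf C I o k₀ y + κ ^ 2 * (((n : ℝ) ^ 2 - n) / 4) * I 1 := by
      have h4 := Qf_add_gm hI o (S.T2 _ hk₀T) htr y κ
      rwa [← hkk] at h4
    have h4 : dv2 C k = dv2 C k₀ := by
      have h5 := dv2_add_gm (C := C) k₀ κ
      rwa [← hkk] at h5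
    have h5 : 0 ≤ κ ^ 2 * (((n : ℝ) ^ 2 - n) / 4) * I 1 := by
      have : 0 ≤ (n : ℝ) ^ 2 - n := by nlinarith
      positivity
    have h6 : κ ^ 2 * n * I 1 = 1 / (n * I 1) * τ ^ 2 := by
      rw [hκ]
      field_simp
    have h7 := B2_nonneg N.pos k₀
    set q₀ : ℝ := Qf C I o k₀ y with hq₀
    set dd : ℝ := hV h r (dv2 C k₀) ^ 2 with hdd
    have h8 : 0 ≤ q₀ + dd := by
      by_contra h9
      push Not at h9
      have : K * (q₀ + dd) < 0 := mul_neg_of_pos_of_neg hK h9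
      linarith
    rw [h2, h3, h4, h6]
    have h9 : 0 ≤ K * (1 + Real.sqrt (I 1) / (n * I 1) * G) := by positivity
    have h10 : 0 < 1 / ((n : ℝ) * I 1) := by positivity
    have h11 : K * (q₀ + dd) ≤
        (K * (1 + Real.sqrt (I 1) / (n * I 1) * G) + K + 1 / (n * I 1)) * (q₀ + dd) :=
      mul_le_mul_of_nonneg_right (by linarith) h8
    have h12 : 1 / (n * I 1) * τ ^ 2 ≤
        (K * (1 + Real.sqrt (I 1) / (n * I 1) * G) + K + 1 / (n * I 1)) * τ ^ 2 :=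
      mul_le_mul_of_nonneg_right (by linarith) (sq_nonneg τ)
    have h13 : 0 ≤ (K * (1 + Real.sqrt (I 1) / (n * I 1) * G) + K + 1 / (n * I 1)) *
        (κ ^ 2 * (((n : ℝ) ^ 2 - n) / 4) * I 1) := mul_nonneg (by linarith) h5
    have h14 : ∀ M X Y Z W : ℝ, M * (X + Y + Z + W) = M * (X + Z) + M * Y + M * W := by
      intro M X Y Z W; ring
    rw [h14]
    linarith

end Vale.Agent.P207.H824
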