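import Vale.Agent.P207.H824.SpcR
import Vale.Agent.P207.H824.NmS

/-!
# P207 / H824: coercivity modulo gauge for equivariant tensors, in the language of `Kat.Q`
-/

set_option linter.unusedSectionVars false
set_option linter.unusedVariables false

noncomputable section

namespace Vale.Agent.P207.H824

open Finset H442 H442.FrCalc H571 H158

variable {n : ℕ} [NeZero n] {A : Type*} [CommRing A] [Algebra ℝ A] {C : FrCalc n A}
  {I : A →ₗ[ℝ] ℝ} {ι κ : Type*} {h : ℕ → A → ℝ} {cn : A → ℝ} {s₀ : ℕ}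

theorem dv2_eq_zero {k : Fin n → Fin n → A} : dv2 C k = 0 ↔ ∀ j, Kat.divf C k j = 0 :=
  ⟨fun h j => congrFun h j, fun h => funext h⟩

theorem B2_self_eq (k : Fin n → Fin n → A) : B2 I k k = I (∑ i, ∑ j, k i j * k i j) := by
  rw [B2_apply]
  simp only [map_sum]

/-- **coercivity modulo gauge** -/
theorem pos_abs (hPar : C.Par) (hI : C.IsInt I) (hI1 : 0 < I 1) (hp : H316.PosInt I)
    (N : Nm C I h cn s₀) (hdef : ∀ f : A, I (f * f) = 0 → f = 0)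
    {S : RotAct C ι} {S0 : StabAct C κ}
    (Sp : Spc C 0 (symMat S) S.vec S0.adm) (An : Ana C I h (symMat S) S.vec)
    {c₀ : ℝ} (hc₀ : 0 < c₀) (hE : ∀ i j, C.Ric i j = if i = j then -(c₀ • (1 : A)) else 0)
    (P : (Fin n → Fin n → A) →ₗ[ℝ] (Fin n → Fin n → A))
    (hP : ∀ l : ℝ, SymProj I (symMat S ⊓ E2 C (-l)) P) {c₁ : ℝ} (hc₁ : 0 < c₁)
    (hco : ∀ W, C.T1 W → c₁ * B2 I (Lg C W) (Lg C W) ≤ B2 I (P (Lg C W)) (P (Lg C W)))
    (hlow : ∀ l : ℝ, ∀ k ∈ symMat S, (∀ i j, C.cas (k i j) = (-l) • k i j) →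
      (∀ j, Kat.divf C (P k) j = 0) → I (∑ i, k i i) = 0 → k ≠ 0 →
      ∃ y ∈ S0.adm, (∀ i, C.cas (y i) = (-l) • y i) ∧ 0 < Kat.Qf C I k y) :
    ∃ K : ℝ, 0 < K ∧ ∀ k ∈ symMat S,
      ∃ y ∈ S0.adm, cV cn y ≤ K * hT h (2 * s₀ + 2 * (s₀ + 1)) k ∧
        I (∑ i, ∑ j, k i j * k i j) ≤ K * (Kat.Qf C I k y
          + hV h (2 * s₀ + 2 * (s₀ + 1)) (Kat.divf C k) ^ 2 + I (∑ i, k i i) ^ 2) := by
  obtain ⟨L, ch, z, Cy, hL, hch, -, hhigh⟩ := H316.high hPar hI hp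
  obtain ⟨K, hK, h1⟩ := pos_gen (z := z) hPar hI hI1 N hdef Sp An hc₀ hE P hP hc₁
    (fun W hW => hco W (Sp.T1 W hW)) hch hL
    (fun l hl k hk hdv => by
      have h2 := (hhigh l hl k hk.2.1 hk.2.2.1 hk.2.2.2 (dv2_eq_zero.1 hdv)).1
      have h3 : H316.yH C (z / l) k = hg C 0 (-z / l) (k 0 0) := by
        funext i
        unfold H316.yH hg
        rw [neg_div]
      rw [Kat_Qf_eq, h3] at h2
      exact h2)
    (fun l _ k hk hne hdv htr => by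
      obtain ⟨y, hy, hc, hQ⟩ := hlow l k hk.1 hk.2.2.2 (dv2_eq_zero.1 hdv) htr hne
      rw [Kat_Qf_eq] at hQ
      exact ⟨y, ⟨hy, hc⟩, hQ⟩)
  refine ⟨K, hK, fun k hk => ?_⟩
  obtain ⟨y, hy, hy1, hy2⟩ := h1 k hk
  refine ⟨y, hy, hy1, ?_⟩
  rw [← B2_self_eq, Kat_Qf_eq]
  exact hy2

end Vale.Agent.P207.H824
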