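import Vale.Agent.P207.H824.Sum
import Vale.Agent.P207.H824.Low

/-!
# P207 / H824: norms and Bessel inequalities for the assembly of the coercivity
-/

set_option linter.unusedSectionVars false

noncomputable section

namespace Vale.Agent.P207.H824

open Finset H442 H442.FrCalc H571

variable {n : ℕ} {A : Type*} [CommRing A] [Algebra ℝ A] {C : FrCalc n A} {I : A →ₗ[ℝ] ℝ}

/-- a scale of norms `h s` (`H^s`) and a norm `cn` (`C^1`) -/
structure Nm (C : FrCalc n A) (I : A →ₗ[ℝ] ℝ) (h : ℕ → A → ℝ) (cn : A → ℝ) (s₀ : ℕ) : Prop where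
  h_add : ∀ s u v, h s (u + v) ≤ h s u + h s v
  h_smul : ∀ s (t : ℝ) u, h s (t • u) = |t| * h s u
  h_nonneg : ∀ s u, 0 ≤ h s u
  h_mono : ∀ {s s' : ℕ}, s ≤ s' → ∀ u, h s u ≤ h s' u
  h_zero : ∀ u, h 0 u ^ 2 = I (u * u)
  h_H : ∀ s i u, h s (C.H i u) ≤ h (s + 1) u
  h_cas : ∀ s, ∃ K : ℝ, 0 ≤ K ∧ ∀ u, h s (C.cas u) ≤ K * h (s + 2) u
  cn_add : ∀ u v, cn (u + v) ≤ cn u + cn v
  cn_smul : ∀ (t : ℝ) u, cn (t • u) = |t| * cn u
  cn_sob : ∃ K : ℝ, 0 ≤ K ∧ ∀ u, cn u ≤ K * h s₀ u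

namespace Nm

variable {h : ℕ → A → ℝ} {cn : A → ℝ} {s₀ : ℕ} (N : Nm C I h cn s₀)
include N

theorem h_z (s : ℕ) : h s 0 = 0 := by
  have h1 := N.h_smul s 0 0
  rw [smul_zero] at h1
  simpa using h1

theorem cn_z : cn 0 = 0 := by
  have h1 := N.cn_smul 0 0
  rw [smul_zero] at h1
  simpa using h1

theorem h_sum (s : ℕ) {κ : Type*} (F : Finset κ) (u : κ → A) :
    h s (∑ l ∈ F, u l) ≤ ∑ l ∈ F, h s (u l) := by
  classical
  induction F using Finset.induction_on with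
  | empty => simp [N.h_z]
  | insert a F ha ih =>
    rw [Finset.sum_insert ha, Finset.sum_insert ha]
    exact (N.h_add s _ _).trans (by linarith)

theorem cn_sum {κ : Type*} (F : Finset κ) (u : κ → A) :
    cn (∑ l ∈ F, u l) ≤ ∑ l ∈ F, cn (u l) := by
  classical
  induction F using Finset.induction_on with
  | empty => simp [N.cn_z]
  | insert a F ha ih =>
    rw [Finset.sum_insert ha, Finset.sum_insert ha]
    exact (N.cn_add _ _).trans (by linarith)

theorem pos (u : A) : 0 ≤ I (u * u) := by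
  rw [← N.h_zero]
  positivity

/-- iterated Casimir operators -/
theorem h_cas_pow (m : ℕ) : ∀ s, ∃ K : ℝ, 0 ≤ K ∧
    ∀ u, h s ((C.casL ^ m) u) ≤ K * h (s + 2 * m) u := by
  induction m with
  | zero => exact fun s => ⟨1, zero_le_one, fun u => by simp⟩
  | succ m ih =>
    intro s
    obtain ⟨K, hK, h1⟩ := N.h_cas s
    obtain ⟨K', hK', h2⟩ := ih (s + 2)
    refine ⟨K * K', mul_nonneg hK hK', fun u => ?_⟩
    have e1 : (C.casL ^ (m + 1)) u = C.cas ((C.casL ^ m) u) := by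
      rw [pow_succ']
      rfl
    have e2 : s + 2 * (m + 1) = s + 2 + 2 * m := by ring
    rw [e1, e2, mul_assoc]
    exact (h1 _).trans (mul_le_mul_of_nonneg_left (h2 u) hK)

end Nm

/-! ### norms of families -/

/-- the `H^s` norm of a family with two indices -/
def hT (h : ℕ → A → ℝ) (s : ℕ) (k : Fin n → Fin n → A) : ℝ := ∑ i, ∑ j, h s (k i j)

/-- the `H^s` norm of a family with one index -/
def hV (h : ℕ → A → ℝ) (s : ℕ) (w : Fin n → A) : ℝ := ∑ i, h s (w i)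

/-- the `C^1` norm of a family with one index -/
def cV (cn : A → ℝ) (w : Fin n → A) : ℝ := ∑ i, cn (w i)

section

variable {h : ℕ → A → ℝ} {cn : A → ℝ} {s₀ : ℕ}

theorem hT_nonneg (N : Nm C I h cn s₀) (s : ℕ) (k : Fin n → Fin n → A) : 0 ≤ hT h s k :=
  Finset.sum_nonneg fun i _ => Finset.sum_nonneg fun j _ => N.h_nonneg s _

theorem hV_nonneg (N : Nm C I h cn s₀) (s : ℕ) (w : Fin n → A) : 0 ≤ hV h s w :=
  Finset.sum_nonneg fun i _ => N.h_nonneg s _

theorem h_le_hT (N : Nm C I h cn s₀) (s : ℕ) (k : Fin n → Fin n → A) (i j : Fin n) :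
    h s (k i j) ≤ hT h s k :=
  (Finset.single_le_sum (f := fun j => h s (k i j)) (fun j _ => N.h_nonneg s _)
    (Finset.mem_univ j)).trans
    (Finset.single_le_sum (f := fun i => ∑ j, h s (k i j))
      (fun i _ => Finset.sum_nonneg fun j _ => N.h_nonneg s _) (Finset.mem_univ i))

theorem h_le_hV (N : Nm C I h cn s₀) (s : ℕ) (w : Fin n → A) (i : Fin n) :
    h s (w i) ≤ hV h s w :=
  Finset.single_le_sum (f := fun i => h s (w i)) (fun i _ => N.h_nonneg s _) (Finset.mem_univ i)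

theorem hT_mono (N : Nm C I h cn s₀) {s s' : ℕ} (hs : s ≤ s') (k : Fin n → Fin n → A) :
    hT h s k ≤ hT h s' k :=
  Finset.sum_le_sum fun i _ => Finset.sum_le_sum fun j _ => N.h_mono hs _

theorem hV_mono (N : Nm C I h cn s₀) {s s' : ℕ} (hs : s ≤ s') (w : Fin n → A) :
    hV h s w ≤ hV h s' w :=
  Finset.sum_le_sum fun i _ => N.h_mono hs _

theorem hT_add (N : Nm C I h cn s₀) (s : ℕ) (k k' : Fin n → Fin n → A) :
    hT h s (k + k') ≤ hT h s k + hT h s k' := by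
  unfold hT
  rw [← Finset.sum_add_distrib]
  refine Finset.sum_le_sum fun i _ => ?_
  rw [← Finset.sum_add_distrib]
  exact Finset.sum_le_sum fun j _ => N.h_add s _ _

theorem hT_smul (N : Nm C I h cn s₀) (s : ℕ) (t : ℝ) (k : Fin n → Fin n → A) :
    hT h s (t • k) = |t| * hT h s k := by
  unfold hT
  simp only [Pi.smul_apply, N.h_smul, Finset.mul_sum]

theorem sum_sq_le {κ : Type*} [Fintype κ] (a : κ → ℝ) (ha : ∀ i, 0 ≤ a i) :
    ∑ i, a i ^ 2 ≤ (∑ i, a i) ^ 2 := by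
  classical
  rw [sq, Finset.sum_mul]
  refine Finset.sum_le_sum fun i _ => ?_
  rw [sq]
  exact mul_le_mul_of_nonneg_left (Finset.single_le_sum (fun j _ => ha j) (Finset.mem_univ i)) (ha i)

theorem B1_le_hV (N : Nm C I h cn s₀) (s : ℕ) (w : Fin n → A) : B1 I w w ≤ hV h s w ^ 2 := by
  have h1 : B1 I w w ≤ hV h 0 w ^ 2 := by
    rw [B1_apply]
    simp only [← N.h_zero]
    exact sum_sq_le _ fun i => N.h_nonneg 0 _
  have h2 := hV_mono N (Nat.zero_le s) w
  have h3 := hV_nonneg N 0 w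
  exact h1.trans (by gcongr)

theorem B2_le_hT (N : Nm C I h cn s₀) (s : ℕ) (k : Fin n → Fin n → A) : B2 I k k ≤ hT h s k ^ 2 := by
  have h1 : B2 I k k ≤ hT h 0 k ^ 2 := by
    rw [B2_apply]
    simp only [← N.h_zero]
    refine le_trans (Finset.sum_le_sum fun i _ => sum_sq_le _ fun j => N.h_nonneg 0 (k i j)) ?_
    exact sum_sq_le (fun i => ∑ j, h 0 (k i j)) fun i =>
      Finset.sum_nonneg fun j _ => N.h_nonneg 0 _
  have h2 := hT_mono N (Nat.zero_le s) k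
  have h3 := hT_nonneg N 0 k
  exact h1.trans (by gcongr)

end

/-! ### Bessel's inequality -/

theorem casL_pow_E0 {lam : ℝ} {u : A} (hu : u ∈ E0 C lam) (m : ℕ) :
    (C.casL ^ m) u = lam ^ m • u := by
  induction m with
  | zero => simp
  | succ m ih =>
    have e1 : (C.casL ^ (m + 1)) u = C.cas ((C.casL ^ m) u) := by
      rw [pow_succ']
      rfl
    rw [e1, ih, cas_smul, mem_E0.1 hu, smul_smul, pow_succ]

theorem casL_pow_symm (hI : C.IsInt I) (m : ℕ) (f w : A) :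
    I (f * (C.casL ^ m) w) = I ((C.casL ^ m) f * w) := by
  induction m generalizing f w with
  | zero => simp
  | succ m ih =>
    have e1 : (C.casL ^ (m + 1)) w = C.cas ((C.casL ^ m) w) := by
      rw [pow_succ']
      rfl
    have e2 : (C.casL ^ (m + 1)) f = (C.casL ^ m) (C.cas f) := by
      rw [pow_succ]
      rfl
    rw [e1, e2, hI.cas_symm, ih]

/-- the square of a sum of eigenfunctions -/
theorem I_sum_sq (hI : C.IsInt I) (F : Finset ℝ) (u : ℝ → A)
    (hu : ∀ l ∈ F, u l ∈ E0 C (-l)) :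
    I ((∑ l ∈ F, u l) * ∑ l ∈ F, u l) = ∑ l ∈ F, I (u l * u l) := by
  rw [Finset.sum_mul, map_sum]
  refine Finset.sum_congr rfl fun l hl => ?_
  rw [Finset.mul_sum, map_sum, Finset.sum_eq_single_of_mem l hl]
  intro m hm hne
  exact E0_orth hI (fun h => hne (neg_injective h).symm) (hu l hl) (hu m hm)

/-- **Bessel's inequality** for the iterated Casimir operators -/
theorem bessel (hI : C.IsInt I) (hpos : ∀ f : A, 0 ≤ I (f * f)) (m : ℕ) (F : Finset ℝ) (u : ℝ → A)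
    (t : A) (hu : ∀ l ∈ F, u l ∈ E0 C (-l)) (ht : ∀ l ∈ F, Orth C I (-l) t) :
    ∑ l ∈ F, (l ^ 2) ^ m * I (u l * u l) ≤
      I ((C.casL ^ m) (∑ l ∈ F, u l + t) * (C.casL ^ m) (∑ l ∈ F, u l + t)) := by
  have e1 : (C.casL ^ m) (∑ l ∈ F, u l + t) = ∑ l ∈ F, (-l) ^ m • u l + (C.casL ^ m) t := by
    rw [map_add, map_sum]
    congr 1
    exact Finset.sum_congr rfl fun l hl => casL_pow_E0 (hu l hl) m
  have e2 : I ((∑ l ∈ F, (-l) ^ m • u l) * (C.casL ^ m) t) = 0 := by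
    rw [Finset.sum_mul, map_sum]
    refine Finset.sum_eq_zero fun l hl => ?_
    rw [casL_pow_symm hI, map_smul, casL_pow_E0 (hu l hl), mul_comm]
    exact ht l hl _ ((E0 C (-l)).smul_mem _ ((E0 C (-l)).smul_mem _ (hu l hl)))
  have e3 : I ((∑ l ∈ F, (-l) ^ m • u l) * ∑ l ∈ F, (-l) ^ m • u l) =
      ∑ l ∈ F, (l ^ 2) ^ m * I (u l * u l) := by
    rw [I_sum_sq hI F (fun l => (-l) ^ m • u l) fun l hl => (E0 C (-l)).smul_mem _ (hu l hl)]
    refine Finset.sum_congr rfl fun l _ => ?_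
    rw [smul_mul_smul_comm, map_smul, smul_eq_mul, ← mul_pow]
    congr 2
    ring
  rw [e1]
  have e4 : (∑ l ∈ F, (-l) ^ m • u l + (C.casL ^ m) t) * (∑ l ∈ F, (-l) ^ m • u l + (C.casL ^ m) t)
      = (∑ l ∈ F, (-l) ^ m • u l) * (∑ l ∈ F, (-l) ^ m • u l)
        + (2 : ℝ) • ((∑ l ∈ F, (-l) ^ m • u l) * (C.casL ^ m) t)
        + (C.casL ^ m) t * (C.casL ^ m) t := by
    rw [two_smul]
    ring
  rw [e4, map_add, map_add, map_smul, e2, e3, smul_zero, add_zero]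
  linarith [hpos ((C.casL ^ m) t)]

/-- equality for `m = 0` -/
theorem parseval (hI : C.IsInt I) (F : Finset ℝ) (u : ℝ → A)
    (t : A) (hu : ∀ l ∈ F, u l ∈ E0 C (-l)) (ht : ∀ l ∈ F, Orth C I (-l) t) :
    I ((∑ l ∈ F, u l + t) * (∑ l ∈ F, u l + t)) = ∑ l ∈ F, I (u l * u l) + I (t * t) := by
  have e2 : I ((∑ l ∈ F, u l) * t) = 0 := by
    rw [Finset.sum_mul, map_sum]
    refine Finset.sum_eq_zero fun l hl => ?_
    rw [mul_comm]
    exact ht l hl _ (hu l hl)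
  have e4 : (∑ l ∈ F, u l + t) * (∑ l ∈ F, u l + t) = (∑ l ∈ F, u l) * (∑ l ∈ F, u l)
        + (2 : ℝ) • ((∑ l ∈ F, u l) * t) + t * t := by
    rw [two_smul]
    ring
  rw [e4, map_add, map_add, map_smul, e2, I_sum_sq hI F u hu, smul_zero, add_zero]

end Vale.Agent.P207.H824
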