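import Vale.Agent.P207.H824.PosC
import Vale.Agent.P207.H158.Adm2
import Vale.Agent.P207.H316.High4
import Vale.Agent.P207.H571.InvK

/-!
# P207 / H824: the spaces of equivariant tensors; coercivity from the high and the low eigenvalues
-/

set_option linter.unusedSectionVars false
set_option linter.unusedVariables false

noncomputable section

namespace Vale.Agent.P207.H824

open Finset H442 H442.FrCalc H571 H158

variable {n : ℕ} [NeZero n] {A : Type*} [CommRing A] [Algebra ℝ A] {C : FrCalc n A}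
  {I : A →ₗ[ℝ] ℝ} {ι κ : Type*}

/-- symmetric equivariant tensors -/
def symMat (S : RotAct C ι) : Submodule ℝ (Fin n → Fin n → A) where
  carrier := {k | (∀ i j, k i j = k j i) ∧ k ∈ S.mat}
  add_mem' := fun {a b} ha hb => ⟨fun i j => by
    rw [Pi.add_apply, Pi.add_apply, Pi.add_apply, Pi.add_apply, ha.1 i j, hb.1 i j],
    S.mat.add_mem ha.2 hb.2⟩
  zero_mem' := ⟨fun _ _ => rfl, S.mat.zero_mem⟩
  smul_mem' := fun c a ha => ⟨fun i j => by
    rw [Pi.smul_apply, Pi.smul_apply, Pi.smul_apply, Pi.smul_apply, ha.1 i j],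
    S.mat.smul_mem c ha.2⟩

theorem mem_symMat {S : RotAct C ι} {k : Fin n → Fin n → A} :
    k ∈ symMat S ↔ (∀ i j, k i j = k j i) ∧ k ∈ S.mat := Iff.rfl

/-- **the spaces of equivariant tensors** -/
theorem spc_rot {S : RotAct C ι} {S0 : StabAct C κ}
    (hvec : ∀ w ∈ S.vec, w ∈ S0.toRotAct.vec) (hmat : ∀ k ∈ S.mat, k ∈ S0.toRotAct.mat)
    (hT1 : ∀ w ∈ S.vec, C.T1 w) (hT2 : ∀ k ∈ symMat S, C.T2 k) :
    Spc C 0 (symMat S) S.vec S0.adm where
  T2 := hT2
  symm k hk := hk.1
  T1 := hT1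
  zero y hy := hy.2
  Lg W hW := ⟨fun i j => add_comm _ _, RotAct.Lf_mem hW⟩
  dv k hk := RotAct.divf_mem hk.2
  pn W hW := by
    have h1 : pn 0 W = - Kat.perp W := by
      funext i
      unfold pn Kat.perp
      rw [Pi.neg_apply]
      split_ifs
      · rw [neg_zero]
      · rfl
    rw [h1]
    exact S0.adm.neg_mem (StabAct.perp_mem (hvec W hW))
  gm := by
    refine ⟨fun i j => ?_, RotAct.delta_mem fun s j k => (S.rot s).orth' j k⟩
    unfold gm
    by_cases h : i = j
    · rw [if_pos h, if_pos h.symm]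
    · rw [if_neg h, if_neg fun h' => h h'.symm]
  hg k hk z := by
    have h1 : hg C 0 z (k 0 0) = z • StabAct.hgr C (k 0 0) := by
      funext i
      unfold hg StabAct.hgr Kat.perp
      rw [Pi.smul_apply]
      split_ifs
      · rw [smul_zero]
      · rfl
    rw [h1]
    exact S0.adm.smul_mem z (StabAct.hgr_mem (StabAct.mat_zero (hmat k hk.2)))

end Vale.Agent.P207.H824
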