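import Vale.Agent.P207.H571.InvK
import Vale.Agent.P207.H824.Slice

/-!
# P207 / H824: the second variation on sums of eigen tensors

Eigen pairs `(k, y)` with different Casimir eigenvalues are orthogonal for the second variation,
and a tail which is orthogonal to the eigenfunctions does not interact.
-/

set_option linter.unusedSectionVars false

noncomputable section

namespace Vale.Agent.P207.H824

open Finset H442 H442.FrCalc H571

variable {n : ℕ} {A : Type*} [CommRing A] [Algebra ℝ A] {C : FrCalc n A} {I : A →ₗ[ℝ] ℝ}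

/-! ### eigenfunctions -/

variable (C) in
/-- eigenfunctions of the Casimir operator -/
def E0 (lam : ℝ) : Submodule ℝ A where
  carrier := {u | C.cas u = lam • u}
  add_mem' := by
    intro u w (hu : C.cas u = lam • u) (hw : C.cas w = lam • w)
    change C.cas (u + w) = lam • (u + w)
    rw [cas_add, hu, hw, smul_add]
  zero_mem' := by
    change C.cas 0 = lam • (0 : A)
    rw [cas_zero, smul_zero]
  smul_mem' := by
    intro c u (hu : C.cas u = lam • u)
    change C.cas (c • u) = lam • (c • u)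
    rw [cas_smul, hu, smul_comm]

theorem mem_E0 {lam : ℝ} {u : A} : u ∈ E0 C lam ↔ C.cas u = lam • u := Iff.rfl

theorem E0_H (hPar : C.Par) {lam : ℝ} {u : A} (hu : u ∈ E0 C lam) (i : Fin n) :
    C.H i u ∈ E0 C lam := by
  rw [mem_E0] at hu ⊢
  rw [← H_cas hPar, hu, Derivation.map_smul]

theorem E0_V {lam : ℝ} {u : A} (hu : u ∈ E0 C lam) (a b : Fin n) :
    C.V a b u ∈ E0 C lam := by
  rw [mem_E0] at hu ⊢
  rw [← V_cas, hu, Derivation.map_smul]

theorem E0_par {lam : ℝ} {u φ : A} (hφ : C.IsPar φ) (hu : u ∈ E0 C lam) :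
    φ * u ∈ E0 C lam := by
  rw [mem_E0] at hu ⊢
  rw [hφ.cas_mul, hu, mul_smul_comm]

theorem E0_orth (hI : C.IsInt I) {lam mu : ℝ} (hne : lam ≠ mu) {u w : A} (hu : u ∈ E0 C lam)
    (hw : w ∈ E0 C mu) : I (u * w) = 0 := hI.orth hu hw hne

theorem isPar_Kf (hPar : C.Par) (o i j : Fin n) : C.IsPar (Kf C o i j) := (hPar.isPar i o o j).neg

/-- `Z` preserves the eigenspaces -/
theorem E0_Zf (hPar : C.Par) {lam : ℝ} {k : Fin n → Fin n → A} (hk : ∀ i j, k i j ∈ E0 C lam)
    (o i : Fin n) : Zf C o k i ∈ E0 C lam :=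
  (E0 C lam).sub_mem (E0_H hPar (hk o i) o) ((E0 C lam).smul_mem _ (E0_H hPar (hk o o) i))

/-- **eigen pairs with different eigenvalues are orthogonal** -/
theorem Bf_orth (hPar : C.Par) (hI : C.IsInt I) {lam mu : ℝ} (hne : lam ≠ mu) (o : Fin n)
    {k k' : Fin n → Fin n → A} {y y' : Fin n → A} (hk : ∀ i j, k i j ∈ E0 C lam)
    (hy : ∀ i, y i ∈ E0 C lam) (hk' : ∀ i j, k' i j ∈ E0 C mu) (hy' : ∀ i, y' i ∈ E0 C mu) :
    Bf C I o k y k' y' = 0 := by
  have h1 : ∀ i, I (Zf C o k i * y' i) = 0 := fun i => E0_orth hI hne (E0_Zf hPar hk o i) (hy' i)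
  have h2 : ∀ i, I (Zf C o k' i * y i) = 0 := fun i =>
    E0_orth hI hne.symm (E0_Zf hPar hk' o i) (hy i)
  have h3 : ∀ i, I (C.H o (y i) * C.H o (y' i)) = 0 := fun i =>
    E0_orth hI hne (E0_H hPar (hy i) o) (E0_H hPar (hy' i) o)
  have h4 : ∀ i j, I (Kf C o i j * (y i * y' j)) = 0 := fun i j => by
    rw [← mul_assoc]
    exact E0_orth hI hne (E0_par (isPar_Kf hPar o i j) (hy i)) (hy' j)
  have h5 : I (k o o * k' o o) = 0 := E0_orth hI hne (hk o o) (hk' o o)
  have h6 : I ((∑ i, k i i) * ∑ i, k' i i) = 0 :=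
    E0_orth hI hne ((E0 C lam).sum_mem fun i _ => hk i i) ((E0 C mu).sum_mem fun i _ => hk' i i)
  have h7 : ∀ i j, I (k i j * k' i j) = 0 := fun i j => E0_orth hI hne (hk i j) (hk' i j)
  unfold Bf
  simp only [h1, h2, h3, h4, h5, h6, h7, Finset.sum_const_zero]
  ring

variable (C I) in
/-- `t` is orthogonal to the eigenfunctions with eigenvalue `lam` -/
def Orth (lam : ℝ) (u : A) : Prop := ∀ w ∈ E0 C lam, I (u * w) = 0

theorem Orth.H (hPar : C.Par) (hI : C.IsInt I) {lam : ℝ} {u : A} (hu : Orth C I lam u) (i : Fin n) :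
    Orth C I lam (C.H i u) := fun w hw => by
  rw [hI.H_mul, hu _ (E0_H hPar hw i), neg_zero]

theorem Orth.sub {lam : ℝ} {u v : A} (hu : Orth C I lam u) (hv : Orth C I lam v) :
    Orth C I lam (u - v) := fun w hw => by
  rw [sub_mul, map_sub, hu w hw, hv w hw, sub_zero]

theorem Orth.smul {lam : ℝ} {u : A} (c : ℝ) (hu : Orth C I lam u) :
    Orth C I lam (c • u) := fun w hw => by
  rw [smul_mul_assoc, map_smul, hu w hw, smul_zero]

theorem Orth.sum {κ : Type*} {s : Finset κ} {lam : ℝ} {u : κ → A}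
    (hu : ∀ i ∈ s, Orth C I lam (u i)) : Orth C I lam (∑ i ∈ s, u i) := fun w hw => by
  rw [Finset.sum_mul, map_sum]
  exact Finset.sum_eq_zero fun i hi => hu i hi w hw

/-- an orthogonal tail does not interact -/
theorem Bf_tail (hPar : C.Par) (hI : C.IsInt I) {lam : ℝ} (o : Fin n)
    {k t : Fin n → Fin n → A} {y : Fin n → A} (hk : ∀ i j, k i j ∈ E0 C lam)
    (hy : ∀ i, y i ∈ E0 C lam) (ht : ∀ i j, Orth C I lam (t i j)) :
    Bf C I o k y t 0 = 0 := by
  have h2 : ∀ i, I (Zf C o t i * y i) = 0 := fun i =>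
    (((ht o i).H hPar hI o).sub (((ht o o).H hPar hI i).smul (1 / 2))) _ (hy i)
  have h5 : I (k o o * t o o) = 0 := by rw [mul_comm]; exact ht o o _ (hk o o)
  have h6 : I ((∑ i, k i i) * ∑ i, t i i) = 0 := by
    rw [mul_comm]
    exact Orth.sum (fun i _ => ht i i) _ ((E0 C lam).sum_mem fun i _ => hk i i)
  have h7 : ∀ i j, I (k i j * t i j) = 0 := fun i j => by rw [mul_comm]; exact ht i j _ (hk i j)
  unfold Bf
  simp only [h2, h5, h6, h7, Pi.zero_apply, map_zero, mul_zero, Finset.sum_const_zero]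
  ring

/-! ### bilinearity -/

theorem Zf_zero (o i : Fin n) : Zf C o (0 : Fin n → Fin n → A) i = 0 := by
  simp [Zf]

theorem Bf_zero_left (o : Fin n) (k' : Fin n → Fin n → A) (y' : Fin n → A) :
    Bf C I o 0 0 k' y' = 0 := by
  unfold Bf
  simp [Zf_zero]

theorem Bf_zero_right (o : Fin n) (k : Fin n → Fin n → A) (y : Fin n → A) :
    Bf C I o k y 0 0 = 0 := by rw [Bf_symm, Bf_zero_left]

theorem Bf_sum_left {κ : Type*} (o : Fin n) (s : Finset κ) (k : κ → Fin n → Fin n → A)
    (y : κ → Fin n → A) (k' : Fin n → Fin n → A) (y' : Fin n → A) :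
    Bf C I o (∑ l ∈ s, k l) (∑ l ∈ s, y l) k' y' = ∑ l ∈ s, Bf C I o (k l) (y l) k' y' := by
  classical
  induction s using Finset.induction_on with
  | empty => simp only [Finset.sum_empty]; exact Bf_zero_left o k' y'
  | insert a s ha ih =>
    rw [Finset.sum_insert ha, Finset.sum_insert ha, Finset.sum_insert ha, ← ih]
    exact Bf_add_left o (k a) (∑ l ∈ s, k l) k' (y a) (∑ l ∈ s, y l) y'

theorem Bf_sum_right {κ : Type*} (o : Fin n) (s : Finset κ) (k : κ → Fin n → Fin n → A)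
    (y : κ → Fin n → A) (k' : Fin n → Fin n → A) (y' : Fin n → A) :
    Bf C I o k' y' (∑ l ∈ s, k l) (∑ l ∈ s, y l) = ∑ l ∈ s, Bf C I o k' y' (k l) (y l) := by
  rw [Bf_symm, Bf_sum_left]
  exact Finset.sum_congr rfl fun l _ => Bf_symm o _ _ _ _

/-- **the second variation of a finite sum of eigen pairs with a tail** -/
theorem Qf_sum_tail (hPar : C.Par) (hI : C.IsInt I) (o : Fin n) (F : Finset ℝ)
    (k : ℝ → Fin n → Fin n → A) (y : ℝ → Fin n → A) (t : Fin n → Fin n → A)
    (hk : ∀ l ∈ F, ∀ i j, k l i j ∈ E0 C l) (hy : ∀ l ∈ F, ∀ i, y l i ∈ E0 C l)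
    (ht : ∀ l ∈ F, ∀ i j, Orth C I l (t i j)) :
    Qf C I o (∑ l ∈ F, k l + t) (∑ l ∈ F, y l) = ∑ l ∈ F, Qf C I o (k l) (y l) + Qf C I o t 0 := by
  have h1 : Qf C I o (∑ l ∈ F, k l + t) (∑ l ∈ F, y l) =
      Qf C I o (∑ l ∈ F, k l) (∑ l ∈ F, y l) + 2 * Bf C I o (∑ l ∈ F, k l) (∑ l ∈ F, y l) t 0
        + Qf C I o t 0 := by
    have h2 := Qf_add (C := C) (I := I) o (∑ l ∈ F, k l) t (∑ l ∈ F, y l) 0
    rw [← h2]
    congr 1
    funext i
    simp
  have h3 : Bf C I o (∑ l ∈ F, k l) (∑ l ∈ F, y l) t 0 = 0 := by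
    rw [Bf_sum_left]
    exact Finset.sum_eq_zero fun l hl => Bf_tail hPar hI o (hk l hl) (hy l hl) (ht l hl)
  have h4 : Qf C I o (∑ l ∈ F, k l) (∑ l ∈ F, y l) = ∑ l ∈ F, Qf C I o (k l) (y l) := by
    rw [Qf_eq, Bf_sum_left]
    refine Finset.sum_congr rfl fun l hl => ?_
    rw [Bf_sum_right, Qf_eq, Finset.sum_eq_single_of_mem l hl]
    intro m hm hne
    exact Bf_orth hPar hI hne.symm o (hk l hl) (hy l hl) (hk m hm) (hy m hm)
  rw [h1, h3, h4]
  ring

/-- the tail costs at most half of its norm -/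
theorem Qf_tail_ge (hpos : ∀ f : A, 0 ≤ I (f * f)) (o : Fin n) (t : Fin n → Fin n → A) :
    -(1 / 2) * B2 I t t ≤ Qf C I o t 0 := by
  have h1 := hpos (t o o)
  have h2 := hpos (∑ i, t i i)
  have h3 : Qf C I o t 0 = n * (1 / 4) * I (t o o * t o o) + (1 / 4) * I ((∑ i, t i i) * ∑ i, t i i)
      - (1 / 2) * B2 I t t := by
    unfold Qf
    simp only [Pi.zero_apply, map_zero, mul_zero, Finset.sum_const_zero, B2_apply]
    ring
  rw [h3]
  have h4 : (0 : ℝ) ≤ n * (1 / 4) * I (t o o * t o o) := by positivity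
  linarith

/-! ### the trace -/

variable (A) in
/-- the metric -/
def gm (i j : Fin n) : A := if i = j then 1 else 0

theorem H_gm (m i j : Fin n) : C.H m (gm A i j) = 0 := by
  unfold gm
  split_ifs <;> simp

theorem T2_gm : C.T2 (gm A) := T2_delta

theorem tr_gm : ∑ i : Fin n, gm A i i = algebraMap ℝ A n := by
  simp [gm]

/-- the metric is orthogonal to the tensors with mean trace zero -/
theorem Bf_gm (hI : C.IsInt I) (o : Fin n) {k : Fin n → Fin n → A} (hk : C.T2 k)
    (htr : I (∑ i, k i i) = 0) (y : Fin n → A) (c : ℝ) :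
    Bf C I o k y (c • gm A) 0 = 0 := by
  have h0 : ∀ m i j : Fin n, C.H m ((c • gm A) i j) = 0 := by
    intro m i j
    rw [Pi.smul_apply, Pi.smul_apply, Derivation.map_smul, H_gm, smul_zero]
  have h2 : ∀ i, Zf C o (c • gm A) i = 0 := fun i => by
    unfold Zf
    rw [h0, h0, smul_zero, sub_zero]
  have hoo : I (k o o) = 0 := by
    have h3 := avg_tr hI hk o
    rw [htr] at h3
    have h4 : (n : ℝ) ≠ 0 := by
      have : 0 < n := Fin.pos o
      positivity
    exact (mul_eq_zero.1 h3).resolve_left h4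
  have h5 : I (k o o * (c • gm A) o o) = 0 := by
    have h6 : k o o * (c • gm A) o o = c • k o o := by
      rw [Pi.smul_apply, Pi.smul_apply, gm, if_pos rfl, mul_smul_comm, mul_one]
    rw [h6, map_smul, hoo, smul_zero]
  have h7 : I ((∑ i, k i i) * ∑ i : Fin n, (c • gm A) i i) = 0 := by
    have h8 : ∑ i : Fin n, (c • gm A) i i = (c * n) • (1 : A) := by
      simp only [Pi.smul_apply, ← Finset.smul_sum]
      rw [tr_gm, Algebra.algebraMap_eq_smul_one, smul_smul]
    rw [h8, mul_smul_comm, mul_one, map_smul, htr, smul_zero]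
  have h9 : ∑ i, ∑ j, I (k i j * (c • gm A) i j) = 0 := by
    have h10 : ∀ i j : Fin n, I (k i j * (c • gm A) i j) = if i = j then c * I (k i i) else 0 := by
      intro i j
      rw [Pi.smul_apply, Pi.smul_apply, gm, mul_smul_comm, map_smul, smul_eq_mul]
      split_ifs with h
      · rw [← h, mul_one]
      · rw [mul_zero, map_zero, mul_zero]
    simp only [h10, Finset.sum_ite_eq, Finset.mem_univ, if_true]
    rw [← Finset.mul_sum, ← map_sum, htr, mul_zero]
  unfold Bf
  simp only [h2, h5, h7, h9, Pi.zero_apply, map_zero, mul_zero, zero_mul, Finset.sum_const_zero]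
  ring

theorem Qf_gm (o : Fin n) (c : ℝ) :
    Qf C I o (c • gm A) 0 = c ^ 2 * (((n : ℝ) ^ 2 - n) / 4) * I 1 := by
  have hoo : (c • gm A) o o * (c • gm A) o o = (c ^ 2) • (1 : A) := by
    rw [Pi.smul_apply, Pi.smul_apply, gm, if_pos rfl, smul_mul_smul_comm, one_mul, sq]
  have h8 : ∑ i : Fin n, (c • gm A) i i = (c * n) • (1 : A) := by
    simp only [Pi.smul_apply, ← Finset.smul_sum]
    rw [tr_gm, Algebra.algebraMap_eq_smul_one, smul_smul]
  have h9 : ∑ i : Fin n, ∑ j : Fin n, I ((c • gm A) i j * (c • gm A) i j) = n * (c ^ 2 * I 1) := by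
    have h10 : ∀ i j : Fin n, I ((c • gm A) i j * (c • gm A) i j) =
        if i = j then c ^ 2 * I 1 else 0 := by
      intro i j
      rw [Pi.smul_apply, Pi.smul_apply, gm, smul_mul_smul_comm, map_smul, smul_eq_mul]
      split_ifs with h
      · rw [one_mul, sq]
      · rw [mul_zero, map_zero, mul_zero]
    simp only [h10, Finset.sum_ite_eq, Finset.mem_univ, if_true, Finset.sum_const,
      Finset.card_univ, Fintype.card_fin, nsmul_eq_mul]
  unfold Qf
  rw [hoo, h8, h9, smul_mul_smul_comm, map_smul, map_smul]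
  simp only [Pi.zero_apply, map_zero, mul_zero, Finset.sum_const_zero, smul_eq_mul, mul_one]
  ring

/-- **splitting off the mean trace** -/
theorem Qf_add_gm (hI : C.IsInt I) (o : Fin n) {k : Fin n → Fin n → A} (hk : C.T2 k)
    (htr : I (∑ i, k i i) = 0) (y : Fin n → A) (c : ℝ) :
    Qf C I o (k + c • gm A) y = Qf C I o k y + c ^ 2 * (((n : ℝ) ^ 2 - n) / 4) * I 1 := by
  have h2 := Qf_add (C := C) (I := I) o k (c • gm A) y 0
  have h3 : Qf C I o (k + c • gm A) y = Qf C I o (fun i j => k i j + (c • gm A) i j)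
      (fun i => y i + (0 : Fin n → A) i) := by
    congr 1
    funext i
    simp
  rw [h3, h2, Bf_gm hI o hk htr y c, Qf_gm]
  ring

theorem B2_add_gm {k : Fin n → Fin n → A} (htr : I (∑ i, k i i) = 0) (c : ℝ) :
    B2 I (k + c • gm A) (k + c • gm A) = B2 I k k + c ^ 2 * n * I 1 := by
  have h9 : B2 I k (gm A) = 0 := by
    rw [B2_apply]
    have h10 : ∀ i j : Fin n, I (k i j * gm A i j) = if i = j then I (k i i) else 0 := by
      intro i j
      rw [gm]
      split_ifs with h
      · rw [← h, mul_one]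
      · rw [mul_zero, map_zero]
    simp only [h10, Finset.sum_ite_eq, Finset.mem_univ, if_true]
    rw [← map_sum, htr]
  have h11 : B2 I (gm (n := n) A) (gm A) = n * I 1 := by
    rw [B2_apply]
    have h10 : ∀ i j : Fin n, I (gm A i j * gm A i j) = if i = j then I 1 else 0 := by
      intro i j
      rw [gm]
      split_ifs with h
      · rw [one_mul]
      · rw [mul_zero, map_zero]
    simp only [h10, Finset.sum_ite_eq, Finset.mem_univ, if_true, Finset.sum_const,
      Finset.card_univ, Fintype.card_fin, nsmul_eq_mul]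
  simp only [map_add, map_smul, LinearMap.add_apply, LinearMap.smul_apply, smul_eq_mul]
  rw [B2_symm (gm A) k, h9, h11]
  ring

/-- the divergence of the metric is zero -/
theorem dv2_add_gm (k : Fin n → Fin n → A) (c : ℝ) : dv2 C (k + c • gm A) = dv2 C k := by
  funext j
  unfold dv2
  refine Finset.sum_congr rfl fun i _ => ?_
  rw [Pi.add_apply, Pi.add_apply, map_add, Pi.smul_apply, Pi.smul_apply, Derivation.map_smul,
    H_gm, smul_zero, add_zero]

end Vale.Agent.P207.H824
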